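import Mathlib
import Vale.Agent.Lib.P034.Chain7

/-!
A chain on subsets with state dependent weights: total cost, support, one step, amplification on
a family closed under steps, and the rounding cover.
-/

namespace Vale.Agent.Lib.P034W
open Finset
open Vale.Agent.Lib.P034

variable {X : Type*} [Fintype X] [DecidableEq X]

/-- The weight of `T'` after `j` steps, where a step from `T` to `T ∪ B` has weight `ρ T B`. -/
noncomputable def chainR (ρ : Finset X → Finset X → ℝ) : ℕ → Finset X → ℝ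
  | 0, T => if T = ∅ then 1 else 0
  | j + 1, T' => ∑ T, ∑ B, if T ∪ B = T' then chainR ρ j T * ρ T B else 0

variable {ρ : Finset X → Finset X → ℝ} {r : ℝ}

lemma chainR_nonneg (hρ : ∀ T B, 0 ≤ ρ T B) (j : ℕ) (T : Finset X) : 0 ≤ chainR ρ j T := by
  induction j generalizing T with
  | zero => simp only [chainR]; split_ifs <;> norm_num
  | succ j ih =>
    simp only [chainR]
    refine Finset.sum_nonneg (fun T' _ => Finset.sum_nonneg (fun B _ => ?_))
    split_ifs
    · exact mul_nonneg (ih T') (hρ _ _)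
    · exact le_rfl

/-- The weighted total mass of the chain does not exceed one. -/
lemma chainR_total (hρ : ∀ T B, 0 ≤ ρ T B) (hr : 0 ≤ r)
    (hsub : ∀ T, ∑ B, r ^ (B \ T).card * ρ T B ≤ 1) (j : ℕ) :
    ∑ T, r ^ T.card * chainR ρ j T ≤ 1 := by
  induction j with
  | zero =>
    rw [Finset.sum_eq_single (∅ : Finset X)]
    · simp [chainR]
    · intro b _ hb
      simp [chainR, hb]
    · intro h
      exact absurd (Finset.mem_univ _) h
  | succ j ih =>
    have step : ∀ T' : Finset X, r ^ T'.card * chainR ρ (j + 1) T' =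
        ∑ T, ∑ B, r ^ T'.card * (if T ∪ B = T' then chainR ρ j T * ρ T B else 0) := by
      intro T'
      simp only [chainR, Finset.mul_sum]
    calc ∑ T', r ^ T'.card * chainR ρ (j + 1) T'
        = ∑ T', ∑ T, ∑ B,
            r ^ T'.card * (if T ∪ B = T' then chainR ρ j T * ρ T B else 0) :=
          Finset.sum_congr rfl (fun T' _ => step T')
      _ = ∑ T, ∑ B, ∑ T',
            r ^ T'.card * (if T ∪ B = T' then chainR ρ j T * ρ T B else 0) := by
          rw [Finset.sum_comm]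
          refine Finset.sum_congr rfl (fun T _ => ?_)
          rw [Finset.sum_comm]
      _ = ∑ T, ∑ B, r ^ (T ∪ B).card * (chainR ρ j T * ρ T B) := by
          refine Finset.sum_congr rfl (fun T _ => Finset.sum_congr rfl (fun B _ => ?_))
          exact sum_ite_union_eq (fun T' => r ^ T'.card) _ T B
      _ ≤ ∑ T, r ^ T.card * chainR ρ j T := by
          refine Finset.sum_le_sum (fun T _ => ?_)
          have hw := chainR_nonneg hρ j T
          have e : ∀ B, r ^ (T ∪ B).card * (chainR ρ j T * ρ T B) =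
              (r ^ T.card * chainR ρ j T) * (r ^ (B \ T).card * ρ T B) := by
            intro B
            rw [card_union_eq_add_sdiff, pow_add]
            ring
          rw [Finset.sum_congr rfl (fun B _ => e B), ← Finset.mul_sum]
          calc _ ≤ (r ^ T.card * chainR ρ j T) * 1 :=
                mul_le_mul_of_nonneg_left (hsub T) (mul_nonneg (pow_nonneg hr _) hw)
            _ = _ := mul_one _
      _ ≤ 1 := ih

/-- The chain lives on sets of size at most `j * n`. -/
lemma chainR_support {n : ℕ} (hs : ∀ T B : Finset X, n < B.card → ρ T B = 0) (j : ℕ) (T : Finset X)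
    (hT : chainR ρ j T ≠ 0) : T.card ≤ j * n := by
  induction j generalizing T with
  | zero =>
    simp only [chainR] at hT
    by_cases h0 : T = ∅
    · simp [h0]
    · simp [h0] at hT
  | succ j ih =>
    simp only [chainR] at hT
    obtain ⟨T', _, hT'⟩ := Finset.exists_ne_zero_of_sum_ne_zero hT
    obtain ⟨B, _, hB⟩ := Finset.exists_ne_zero_of_sum_ne_zero hT'
    by_cases hu : T' ∪ B = T
    · rw [if_pos hu] at hB
      have h1 : chainR ρ j T' ≠ 0 := by
        intro h0
        apply hB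
        simp [h0]
      have h2 : ρ T' B ≠ 0 := by
        intro h0
        apply hB
        simp [h0]
      have h3 : B.card ≤ n := by
        by_contra hc
        exact h2 (hs T' B (not_le.mp hc))
      have h4 := ih T' h1
      rw [← hu]
      calc (T' ∪ B).card ≤ T'.card + B.card := Finset.card_union_le _ _
        _ ≤ j * n + n := add_le_add h4 h3
        _ = (j + 1) * n := by ring
    · rw [if_neg hu] at hB
      exact absurd rfl hB

/-- One term of the recursion. -/
lemma chainR_step_ge (hρ : ∀ T B, 0 ≤ ρ T B) (j : ℕ) (T B : Finset X) :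
    chainR ρ j T * ρ T B ≤ chainR ρ (j + 1) (T ∪ B) := by
  simp only [chainR]
  have hnn : ∀ T' B' : Finset X,
      0 ≤ (if T' ∪ B' = T ∪ B then chainR ρ j T' * ρ T' B' else 0) := by
    intro T' B'
    split_ifs
    · exact mul_nonneg (chainR_nonneg hρ j T') (hρ _ _)
    · exact le_rfl
  calc chainR ρ j T * ρ T B
      = (if T ∪ B = T ∪ B then chainR ρ j T * ρ T B else 0) := by simp
    _ ≤ ∑ B', (if T ∪ B' = T ∪ B then chainR ρ j T * ρ T B' else 0) :=
        Finset.single_le_sum (f := fun B' =>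
          (if T ∪ B' = T ∪ B then chainR ρ j T * ρ T B' else 0))
          (fun B' _ => hnn T B') (Finset.mem_univ B)
    _ ≤ ∑ T', ∑ B', (if T' ∪ B' = T ∪ B then chainR ρ j T' * ρ T' B' else 0) :=
        Finset.single_le_sum (f := fun T' => ∑ B',
          (if T' ∪ B' = T ∪ B then chainR ρ j T' * ρ T' B' else 0))
          (fun T' _ => Finset.sum_nonneg (fun B' _ => hnn T' B')) (Finset.mem_univ T)

/-- One step of growth on a family closed under the allowed steps. -/
lemma chainR_gain (hρ : ∀ T B, 0 ≤ ρ T B) {n N : ℕ}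
    (hs : ∀ T B : Finset X, n < B.card → ρ T B = 0)
    (Tt : Finset (Finset X)) (J : Finset X) (hclosed : ∀ T ∈ Tt, ∀ B ⊆ J \ T, T ∪ B ∈ Tt) {β : ℝ}
    (hgain : ∀ T ∈ Tt, T.card ≤ N → β ≤ ∑ B ∈ (J \ T).powerset, ρ T B)
    (j : ℕ) (hj : j * n ≤ N) :
    β * ∑ T ∈ Tt, chainR ρ j T ≤ ∑ T ∈ Tt, chainR ρ (j + 1) T := by
  have hnn : ∀ T B : Finset X, 0 ≤ chainR ρ j T * ρ T B :=
    fun T B => mul_nonneg (chainR_nonneg hρ j T) (hρ _ _)
  have h1 : ∀ T ∈ Tt, β * chainR ρ j T ≤ ∑ B ∈ (J \ T).powerset, chainR ρ j T * ρ T B := by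
    intro T hT
    rw [← Finset.mul_sum]
    by_cases hw : chainR ρ j T = 0
    · simp [hw]
    have hc : T.card ≤ N := (chainR_support hs j T hw).trans hj
    rw [mul_comm]
    exact mul_le_mul_of_nonneg_left (hgain T hT hc) (chainR_nonneg hρ j T)
  have h2 : ∑ T ∈ Tt, ∑ B ∈ (J \ T).powerset, chainR ρ j T * ρ T B ≤
      ∑ T' ∈ Tt, chainR ρ (j + 1) T' := by
    simp only [chainR]
    calc ∑ T ∈ Tt, ∑ B ∈ (J \ T).powerset, chainR ρ j T * ρ T B
        ≤ ∑ T ∈ Tt, ∑ B ∈ (J \ T).powerset, ∑ T' ∈ Tt,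
            (if T ∪ B = T' then chainR ρ j T * ρ T B else 0) := by
          refine Finset.sum_le_sum (fun T hT => Finset.sum_le_sum (fun B hB => ?_))
          rw [Finset.sum_ite_eq]
          rw [if_pos (hclosed T hT B (Finset.mem_powerset.mp hB))]
      _ ≤ ∑ T ∈ Tt, ∑ B, ∑ T' ∈ Tt, (if T ∪ B = T' then chainR ρ j T * ρ T B else 0) := by
          refine Finset.sum_le_sum (fun T _ => ?_)
          refine Finset.sum_le_sum_of_subset_of_nonneg (Finset.subset_univ _) (fun B _ _ => ?_)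
          refine Finset.sum_nonneg (fun T' _ => ?_)
          split_ifs
          · exact hnn _ _
          · exact le_rfl
      _ = ∑ T ∈ Tt, ∑ T' ∈ Tt, ∑ B, (if T ∪ B = T' then chainR ρ j T * ρ T B else 0) := by
          refine Finset.sum_congr rfl (fun T _ => ?_)
          rw [Finset.sum_comm]
      _ ≤ ∑ T, ∑ T' ∈ Tt, ∑ B, (if T ∪ B = T' then chainR ρ j T * ρ T B else 0) := by
          refine Finset.sum_le_sum_of_subset_of_nonneg (Finset.subset_univ _) (fun T _ _ => ?_)
          refine Finset.sum_nonneg (fun T' _ => Finset.sum_nonneg (fun B _ => ?_))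
          split_ifs
          · exact hnn _ _
          · exact le_rfl
      _ = _ := Finset.sum_comm
  calc β * ∑ T ∈ Tt, chainR ρ j T = ∑ T ∈ Tt, β * chainR ρ j T := by rw [Finset.mul_sum]
    _ ≤ _ := Finset.sum_le_sum h1
    _ ≤ _ := h2

/-- Geometric growth on a family closed under the allowed steps. -/
lemma chainR_amplify (hρ : ∀ T B, 0 ≤ ρ T B) {n N : ℕ}
    (hs : ∀ T B : Finset X, n < B.card → ρ T B = 0)
    (Tt : Finset (Finset X)) (J : Finset X) (hclosed : ∀ T ∈ Tt, ∀ B ⊆ J \ T, T ∪ B ∈ Tt) {β : ℝ}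
    (hβ : 0 ≤ β)
    (hgain : ∀ T ∈ Tt, T.card ≤ N → β ≤ ∑ B ∈ (J \ T).powerset, ρ T B)
    (t s : ℕ) (hts : (t + s) * n ≤ N) :
    β ^ s * ∑ T ∈ Tt, chainR ρ t T ≤ ∑ T ∈ Tt, chainR ρ (t + s) T := by
  induction s with
  | zero => simp
  | succ s ih =>
    have h0 : (t + s) * n ≤ N := le_trans (Nat.mul_le_mul_right n (by omega)) hts
    have h1 := ih h0
    have h2 := chainR_gain hρ hs Tt J hclosed hgain (t + s) h0
    calc β ^ (s + 1) * ∑ T ∈ Tt, chainR ρ t T
        = β * (β ^ s * ∑ T ∈ Tt, chainR ρ t T) := by ring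
      _ ≤ β * ∑ T ∈ Tt, chainR ρ (t + s) T := mul_le_mul_of_nonneg_left h1 hβ
      _ ≤ _ := h2

/-- The rounding cover: a weight of total cost at most one with mass at least `M` on the subsets
of each target gives a cover of all targets. -/
theorem rounding_cover (w : Finset X → ℝ) (hw : ∀ T, 0 ≤ w T) (hr0 : 0 < r)
    (htot : ∑ T, r ^ T.card * w T ≤ 1) (𝓘 : Finset (Finset X)) {W M lam : ℝ}
    (hW : ∑ I ∈ 𝓘, r ^ I.card ≤ W) (hlam : 0 ≤ lam)
    (hM : ∀ I ∈ 𝓘, M ≤ ∑ T ∈ I.powerset, w T) :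
    ∃ C : Finset (Finset X), ∑ T ∈ C, r ^ T.card ≤ lam + W * Real.exp (-(lam * (M - 1))) ∧
      ∀ I ∈ 𝓘, ∃ T ∈ C, T ⊆ I := by
  classical
  set E : ℝ := Real.exp (-(lam * (M - 1))) with hE
  have hEpos : 0 ≤ E := (Real.exp_pos _).le
  set S : Finset (Finset X) := Finset.univ.filter (fun T => T ≠ ∅) with hS
  set u : Finset X → ℝ := fun T => lam * w T with hu
  set y : Finset X → ℝ := fun T => min 1 (u T) with hy
  have hu0 : ∀ T, 0 ≤ u T := fun T => mul_nonneg hlam (hw T)
  have hy0 : ∀ T, 0 ≤ y T := fun T => le_min zero_le_one (hu0 T)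
  have hy1 : ∀ T, y T ≤ 1 := fun T => min_le_left _ _
  obtain ⟨𝒯, h𝒯S, hround⟩ := rounding_exists S (fun T => r ^ T.card) y hy0 hy1 𝓘
    (fun T I => T ⊆ I) (fun I => r ^ I.card) (fun I => pow_nonneg hr0.le _)
  have hprod : ∀ I ∈ 𝓘, ∏ T ∈ S.filter (fun T => T ⊆ I), (1 - y T) ≤ E := by
    intro I hI
    have hempty : w ∅ ≤ 1 := by
      have h2 : r ^ (∅ : Finset X).card * w ∅ ≤ ∑ T, r ^ T.card * w T :=
        Finset.single_le_sum (f := fun T => r ^ T.card * w T)
          (fun T _ => mul_nonneg (pow_nonneg hr0.le _) (hw T))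
          (Finset.mem_univ _)
      simp only [Finset.card_empty, pow_zero, one_mul] at h2
      linarith
    have hsplit : ∑ T ∈ I.powerset, w T =
        w ∅ + ∑ T ∈ S.filter (fun T => T ⊆ I), w T := by
      rw [← Finset.add_sum_erase _ _ (Finset.empty_mem_powerset I)]
      congr 1
      refine Finset.sum_congr ?_ (fun _ _ => rfl)
      ext T
      simp [hS]
    have hsum : M - 1 ≤ ∑ T ∈ S.filter (fun T => T ⊆ I), w T := by
      have := hM I hI
      linarith
    calc ∏ T ∈ S.filter (fun T => T ⊆ I), (1 - y T)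
        ≤ Real.exp (-∑ T ∈ S.filter (fun T => T ⊆ I), u T) := prod_one_sub_min_le _ _
      _ ≤ E := by
          apply Real.exp_le_exp.mpr
          apply neg_le_neg
          simp only [hu]
          rw [← Finset.mul_sum]
          exact mul_le_mul_of_nonneg_left hsum hlam
  have hyc : ∑ T ∈ S, y T * r ^ T.card ≤ lam := by
    calc ∑ T ∈ S, y T * r ^ T.card ≤ ∑ T ∈ S, lam * (r ^ T.card * w T) := by
          refine Finset.sum_le_sum (fun T _ => ?_)
          have : y T ≤ lam * w T := min_le_right _ _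
          calc y T * r ^ T.card ≤ (lam * w T) * r ^ T.card :=
                mul_le_mul_of_nonneg_right this (pow_nonneg hr0.le _)
            _ = _ := by ring
      _ ≤ ∑ T, lam * (r ^ T.card * w T) :=
          Finset.sum_le_sum_of_subset_of_nonneg (Finset.subset_univ _)
            (fun T _ _ => mul_nonneg hlam (mul_nonneg (pow_nonneg hr0.le _) (hw T)))
      _ = lam * ∑ T, r ^ T.card * w T := by rw [Finset.mul_sum]
      _ ≤ lam * 1 := mul_le_mul_of_nonneg_left htot hlam
      _ = lam := mul_one _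
  have htarget : ∑ I ∈ 𝓘, r ^ I.card * ∏ T ∈ S.filter (fun T => T ⊆ I), (1 - y T) ≤
      W * E := by
    calc ∑ I ∈ 𝓘, r ^ I.card * ∏ T ∈ S.filter (fun T => T ⊆ I), (1 - y T)
        ≤ ∑ I ∈ 𝓘, r ^ I.card * E :=
          Finset.sum_le_sum (fun I hI =>
            mul_le_mul_of_nonneg_left (hprod I hI) (pow_nonneg hr0.le _))
      _ = (∑ I ∈ 𝓘, r ^ I.card) * E := by rw [Finset.sum_mul]
      _ ≤ _ := mul_le_mul_of_nonneg_right hW hEpos
  set Miss : Finset (Finset X) := 𝓘.filter (fun I => ¬ ∃ T ∈ 𝒯, T ⊆ I) with hMiss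
  refine ⟨𝒯 ∪ Miss, ?_, ?_⟩
  · have hmisscost : ∑ I ∈ Miss, r ^ I.card =
        ∑ I ∈ 𝓘, (if ∃ T ∈ 𝒯, T ⊆ I then 0 else r ^ I.card) := by
      rw [hMiss, Finset.sum_filter]
      refine Finset.sum_congr rfl (fun I _ => ?_)
      by_cases hc : ∃ T ∈ 𝒯, T ⊆ I
      · rw [if_pos hc, if_neg (not_not.mpr hc)]
      · rw [if_neg hc, if_pos hc]
    have hunion : ∑ T ∈ 𝒯 ∪ Miss, r ^ T.card ≤ ∑ T ∈ 𝒯, r ^ T.card + ∑ T ∈ Miss, r ^ T.card := by
      rw [← Finset.sum_union_inter]
      have : 0 ≤ ∑ T ∈ 𝒯 ∩ Miss, r ^ T.card := Finset.sum_nonneg (fun T _ => pow_nonneg hr0.le _)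
      linarith
    have hround' : ∑ T ∈ 𝒯, r ^ T.card + ∑ I ∈ Miss, r ^ I.card ≤
        ∑ T ∈ S, y T * r ^ T.card +
          ∑ I ∈ 𝓘, r ^ I.card * ∏ T ∈ S.filter (fun T => T ⊆ I), (1 - y T) := by
      rw [hmisscost]
      convert hround using 3
      · split_ifs <;> rfl
      · congr 1
        refine Finset.prod_congr ?_ (fun _ _ => rfl)
        ext T
        simp only [Finset.mem_filter]
    linarith
  · intro I hI
    by_cases hc : ∃ T ∈ 𝒯, T ⊆ I
    · obtain ⟨T, hT, hTI⟩ := hc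
      exact ⟨T, Finset.mem_union_left _ hT, hTI⟩
    · exact ⟨I, Finset.mem_union_right _ (Finset.mem_filter.mpr ⟨hI, hc⟩), Finset.Subset.refl _⟩

/-- The family of seed free sets, every element of which lies in a heavy subset, has bounded
cost. -/
theorem selfcover_cost {g : Finset X → ℝ} (hg : ∀ S, 0 ≤ g S) {a bs γ : ℝ} (ha0 : 0 ≤ a)
    (ha1 : a ≤ 1) (hr0 : 0 < r) (hbs : a + (1 - a) * r ≤ bs) (hΦ : phiA g bs ∅ ≤ 1) (hγ : 0 < γ)
    (N : ℕ) (𝓘 : Finset (Finset X))
    (hI : ∀ I ∈ 𝓘, SeedFree g bs I ∧ I.card ≤ N ∧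
      ∀ x ∈ I, ∃ B ⊆ I, x ∈ B ∧ γ ≤ hW g a B) :
    ∑ I ∈ 𝓘.filter (fun I => I.Nonempty), r ^ I.card ≤ (2 ^ N / γ) ^ N := by
  set f : Finset X → ℝ := thresh (hW g a) γ with hf
  have hh := hW_nonneg hg ha0 ha1
  have hf0 : ∀ B, 0 ≤ f B := thresh_nonneg hh
  have hker : ∀ T, kerMass f r T ≤ kerMass (hW g a) r T := kerMass_thresh_le hh hr0.le
  set η : ℝ := γ / 2 ^ N with hη
  have hηpos : 0 < η := div_pos hγ (by positivity)
  have hb0 : 0 ≤ a + (1 - a) * r := add_nonneg ha0 (mul_nonneg (sub_nonneg.mpr ha1) hr0.le)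
  have hreach : ∀ I ∈ 𝓘.filter (fun I => I.Nonempty), η ^ N ≤ chainW f r N I := by
    intro I hI'
    obtain ⟨hI1, hne⟩ := Finset.mem_filter.mp hI'
    obtain ⟨hSI, hcard, hmin⟩ := hI I hI1
    have hheavy : ∀ x ∈ I, ∃ B ⊆ I, x ∈ B ∧ 0 < f B ∧ ∀ T ⊆ I, η * kerMass f r T ≤ f B := by
      intro x hx
      obtain ⟨B, hBI, hxB, hBγ⟩ := hmin x hx
      have hBne : B ≠ ∅ := fun e => by simp [e] at hxB
      have hfB : f B = hW g a B := by
        simp only [hf, thresh]
        rw [if_pos (Or.inr hBγ)]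
      refine ⟨B, hBI, hxB, ?_, fun T hT => ?_⟩
      · rw [hfB]
        exact lt_of_lt_of_le hγ hBγ
      have hk1 : kerMass f r T ≤ 2 ^ N := by
        calc kerMass f r T ≤ kerMass (hW g a) r T := hker T
          _ ≤ 2 ^ T.card := by
              rw [kerMass_hW]
              exact seedFree_phi_le hg hb0 hbs hΦ (seedFree_anti hT hSI)
          _ ≤ 2 ^ N := pow_le_pow_right₀ (by norm_num)
              ((Finset.card_le_card hT).trans hcard)
      rw [hfB]
      calc η * kerMass f r T ≤ η * 2 ^ N := mul_le_mul_of_nonneg_left hk1 hηpos.le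
        _ = γ := by rw [hη]; field_simp
        _ ≤ _ := hBγ
    obtain ⟨T, hTI, hT1, hT2⟩ := chain_path_lower hf0 hr0 I hne hηpos hheavy N
    have hTeq : T = I := by
      apply Finset.eq_of_subset_of_card_le hTI
      rwa [min_eq_right hcard] at hT2
    rwa [hTeq] at hT1
  have h1 := family_cost_le hf0 hr0.le N (𝓘.filter (fun I => I.Nonempty)) (pow_pos hηpos N) hreach
  have h2 : 1 / η ^ N = (2 ^ N / γ) ^ N := by
    rw [hη, one_div, ← inv_pow, inv_div]
  rwa [h2] at h1

end Vale.Agent.Lib.P034W
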