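import Mathlib
import Vale.Agent.Lib.P034W.Chain

/-!
Scores, forced and allowed sets, the capped potential and the kernel weight at a state.
-/

namespace Vale.Agent.Lib.P034W
open Finset
open Vale.Agent.Lib.P034

variable {X : Type*} [Fintype X] [DecidableEq X]

/-- The score of `C` at the state `T`. -/
noncomputable def score (g : Finset X → ℝ) (r : ℝ) (C T : Finset X) : ℝ :=
  ∑ S ∈ univ.filter (fun S => C ⊆ S), g S * (2 * r) ^ (S \ (T ∪ C)).card

open scoped Classical in
/-- The union of the nonempty subsets of `S \ T` of score at least `θ`. -/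
noncomputable def hiSet (g : Finset X → ℝ) (r θ : ℝ) (S T : Finset X) : Finset X :=
  ((S \ T).powerset.filter (fun C => C.Nonempty ∧ θ ≤ score g r C T)).biUnion id

/-- `S` has no nonempty subset of `S \ T` of score at least `κ`. -/
def Unc (g : Finset X → ℝ) (r κ : ℝ) (S T : Finset X) : Prop := hiSet g r κ S T = ∅

open scoped Classical in
/-- The capped and discounted potential at `T`. -/
noncomputable def vv (g : Finset X → ℝ) (r κ θ : ℝ) (T : Finset X) : ℝ :=
  ∑ S ∈ univ.filter (fun S => Unc g r κ S T),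
    g S * (1 / 2) ^ (hiSet g r θ S T).card * (2 * r) ^ (S \ T).card

open scoped Classical in
/-- The kernel weight at the state `T` with cap `κ`, forced threshold `θ`, allowed threshold `l`. -/
noncomputable def hK (g : Finset X → ℝ) (r κ θ l : ℝ) (T B : Finset X) : ℝ :=
  ∑ S ∈ univ.filter (fun S => Unc g r κ S T ∧ hiSet g r θ S T ⊆ B ∧ B ⊆ hiSet g r l S T),
    g S * r ^ (hiSet g r l S T \ B).card * (2 * r) ^ ((S \ T) \ hiSet g r l S T).card

variable {g : Finset X → ℝ} {r : ℝ}

lemma mem_hiSet {θ : ℝ} {S T : Finset X} {z : X} :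
    z ∈ hiSet g r θ S T ↔ ∃ C, C ⊆ S \ T ∧ C.Nonempty ∧ θ ≤ score g r C T ∧ z ∈ C := by
  classical
  simp only [hiSet, Finset.mem_biUnion, Finset.mem_filter, Finset.mem_powerset, id]
  constructor
  · rintro ⟨C, ⟨h1, h2, h3⟩, h4⟩
    exact ⟨C, h1, h2, h3, h4⟩
  · rintro ⟨C, h1, h2, h3, h4⟩
    exact ⟨C, ⟨h1, h2, h3⟩, h4⟩

lemma hiSet_subset {θ : ℝ} {S T : Finset X} : hiSet g r θ S T ⊆ S \ T := by
  intro z hz
  obtain ⟨C, h1, _, _, h4⟩ := mem_hiSet.mp hz
  exact h1 h4

lemma hiSet_anti {θ θ' : ℝ} (h : θ' ≤ θ) {S T : Finset X} :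
    hiSet g r θ S T ⊆ hiSet g r θ' S T := by
  intro z hz
  obtain ⟨C, h1, h2, h3, h4⟩ := mem_hiSet.mp hz
  exact mem_hiSet.mpr ⟨C, h1, h2, h.trans h3, h4⟩

lemma unc_iff {κ : ℝ} {S T : Finset X} :
    Unc g r κ S T ↔ ∀ C, C ⊆ S \ T → C.Nonempty → score g r C T < κ := by
  unfold Unc
  constructor
  · intro h C h1 h2
    by_contra hc
    push Not at hc
    obtain ⟨z, hz⟩ := h2
    have : z ∈ hiSet g r κ S T := mem_hiSet.mpr ⟨C, h1, ⟨z, hz⟩, hc, hz⟩
    rw [h] at this
    simp at this
  · intro h
    rw [Finset.eq_empty_iff_forall_notMem]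
    intro z hz
    obtain ⟨C, h1, h2, h3, _⟩ := mem_hiSet.mp hz
    exact absurd h3 (not_le.mpr (h C h1 h2))

/-- (K2) The score increases with the state, after removing the part of `C` inside the larger
state. -/
lemma score_mono (hg : ∀ S, 0 ≤ g S) (hr0 : 0 ≤ r) (hr1 : 2 * r ≤ 1) {C T I : Finset X}
    (hTI : T ⊆ I) : score g r C T ≤ score g r (C \ I) I := by
  unfold score
  refine le_trans (Finset.sum_le_sum (fun S hS => ?_)) (Finset.sum_le_sum_of_subset_of_nonneg ?_ ?_)
  · have hCS : C ⊆ S := (Finset.mem_filter.mp hS).2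
    refine mul_le_mul_of_nonneg_left ?_ (hg S)
    refine pow_le_pow_of_le_one (by positivity) hr1 (Finset.card_le_card ?_)
    intro x hx
    simp only [Finset.mem_sdiff, Finset.mem_union, not_or] at hx ⊢
    refine ⟨hx.1, fun h => hx.2.1 (hTI h), fun h => ?_⟩
    exact hx.2.2 ⟨h, hx.2.1⟩
  · intro S hS
    have hCS : C ⊆ S := (Finset.mem_filter.mp hS).2
    exact Finset.mem_filter.mpr ⟨Finset.mem_univ _, (Finset.sdiff_subset).trans hCS⟩
  · intro S _ _
    exact mul_nonneg (hg S) (pow_nonneg (by positivity) _)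

/-- (K1) The kernel mass at `T` is the capped potential at `T`. -/
lemma sum_hK (hr0 : 0 ≤ r) {κ θ l : ℝ} (hl : l ≤ θ) (T : Finset X) :
    ∑ B, r ^ B.card * hK g r κ θ l T B = vv g r κ θ T := by
  classical
  unfold hK vv
  simp only [Finset.mul_sum, Finset.sum_filter]
  rw [Finset.sum_comm]
  refine Finset.sum_congr rfl (fun S _ => ?_)
  by_cases hU : Unc g r κ S T
  · simp only [hU, true_and, if_true]
    set F := hiSet g r θ S T with hF
    set E := hiSet g r l S T with hE
    have hFE : F ⊆ E := hiSet_anti hl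
    have hES : E ⊆ S \ T := hiSet_subset
    have hterm : ∀ B : Finset X, r ^ B.card * (if F ⊆ B ∧ B ⊆ E then
        (g S * r ^ (E \ B).card * (2 * r) ^ ((S \ T) \ E).card) else 0) =
        if B ∈ Finset.Icc F E then g S * r ^ E.card * (2 * r) ^ ((S \ T) \ E).card else 0 := by
      intro B
      by_cases hB : F ⊆ B ∧ B ⊆ E
      · have hBI : B ∈ Finset.Icc F E := Finset.mem_Icc.mpr hB
        rw [if_pos hB, if_pos hBI]
        have hcard : E.card = B.card + (E \ B).card := by
          rw [Finset.card_sdiff_of_subset hB.2]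
          have := Finset.card_le_card hB.2
          omega
        rw [hcard, pow_add]
        ring
      · have hBI : B ∉ Finset.Icc F E := fun h => hB (Finset.mem_Icc.mp h)
        rw [if_neg hB, if_neg hBI, mul_zero]
    rw [Finset.sum_congr rfl (fun B _ => hterm B)]
    rw [Finset.sum_ite_mem, Finset.univ_inter, Finset.sum_const, Finset.card_Icc_finset hFE]
    have hcardS : (S \ T).card = E.card + ((S \ T) \ E).card := by
      rw [Finset.card_sdiff_of_subset hES]
      have := Finset.card_le_card hES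
      omega
    have hFEc : F.card ≤ E.card := Finset.card_le_card hFE
    rw [nsmul_eq_mul, hcardS, pow_add, mul_pow 2 r E.card]
    push_cast
    have e2 : (2 : ℝ) ^ E.card = 2 ^ (E.card - F.card) * 2 ^ F.card := by
      rw [← pow_add]
      congr 1
      omega
    have e3 : ((1 : ℝ) / 2) ^ F.card * 2 ^ F.card = 1 := by
      rw [← mul_pow]
      norm_num
    rw [e2]
    calc (2 : ℝ) ^ (E.card - F.card) * (g S * r ^ E.card * (2 * r) ^ ((S \ T) \ E).card)
        = (2 : ℝ) ^ (E.card - F.card) * (g S * r ^ E.card * (2 * r) ^ ((S \ T) \ E).card)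
            * (((1 : ℝ) / 2) ^ F.card * 2 ^ F.card) := by rw [e3, mul_one]
      _ = _ := by ring
  · simp only [hU, false_and, if_false]
    simp

/-- (K3) The batch weights have total cost at most the potential at `3 r`. -/
lemma sum_batch_le (hg : ∀ S, 0 ≤ g S) (hr0 : 0 ≤ r) (T : Finset X) :
    ∑ C ∈ univ.filter (fun C : Finset X => C.Nonempty ∧ Disjoint C T), r ^ C.card * score g r C T ≤
      phiA g (3 * r) T := by
  classical
  unfold score phiA
  have h1 : ∀ C ∈ univ.filter (fun C : Finset X => C.Nonempty ∧ Disjoint C T),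
      r ^ C.card * ∑ S ∈ univ.filter (fun S => C ⊆ S), g S * (2 * r) ^ (S \ (T ∪ C)).card =
      ∑ S, (if C ⊆ S then r ^ C.card * (g S * (2 * r) ^ (S \ (T ∪ C)).card) else 0) := by
    intro C _
    rw [Finset.mul_sum, Finset.sum_filter]
  rw [Finset.sum_congr rfl h1, Finset.sum_comm]
  refine Finset.sum_le_sum (fun S _ => ?_)
  have hbin : ∑ C ∈ (S \ T).powerset, r ^ C.card * (2 * r) ^ ((S \ T).card - C.card) =
      (3 * r) ^ (S \ T).card := by
    rw [Finset.sum_pow_mul_eq_add_pow]
    congr 1
    ring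
  have hnn : ∀ C : Finset X, 0 ≤ g S * (r ^ C.card * (2 * r) ^ ((S \ T).card - C.card)) := fun C =>
    mul_nonneg (hg S) (mul_nonneg (pow_nonneg hr0 _) (pow_nonneg (by positivity) _))
  calc ∑ C ∈ univ.filter (fun C : Finset X => C.Nonempty ∧ Disjoint C T),
        (if C ⊆ S then r ^ C.card * (g S * (2 * r) ^ (S \ (T ∪ C)).card) else 0)
      ≤ ∑ C ∈ (univ.filter (fun C : Finset X => C.Nonempty ∧ Disjoint C T)).filter
          (fun C => C ∈ (S \ T).powerset),
          g S * (r ^ C.card * (2 * r) ^ ((S \ T).card - C.card)) := by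
        rw [Finset.sum_filter (s := univ.filter (fun C : Finset X => C.Nonempty ∧ Disjoint C T))
          (p := fun C => C ∈ (S \ T).powerset)]
        refine Finset.sum_le_sum (fun C hC => ?_)
        have h1 := (Finset.mem_filter.mp hC).2
        by_cases h2 : C ⊆ S
        · have hCsub : C ⊆ S \ T := by
            intro x hx
            exact Finset.mem_sdiff.mpr ⟨h2 hx, fun hxT => Finset.disjoint_left.mp h1.2 hx hxT⟩
          rw [if_pos h2, if_pos (Finset.mem_powerset.mpr hCsub)]
          have hcard : (S \ (T ∪ C)).card = (S \ T).card - C.card := by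
            have : S \ (T ∪ C) = (S \ T) \ C := by
              ext x
              simp only [Finset.mem_sdiff, Finset.mem_union, not_or]
              tauto
            rw [this, Finset.card_sdiff_of_subset hCsub]
          rw [hcard]
          apply le_of_eq
          ring
        · rw [if_neg h2]
          split_ifs
          · exact hnn C
          · exact le_rfl
    _ ≤ ∑ C ∈ (S \ T).powerset, g S * (r ^ C.card * (2 * r) ^ ((S \ T).card - C.card)) := by
        refine Finset.sum_le_sum_of_subset_of_nonneg ?_ (fun C _ _ => hnn C)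
        intro C hC
        exact (Finset.mem_filter.mp hC).2
    _ = g S * (3 * r) ^ (S \ T).card := by
        rw [← Finset.mul_sum, hbin]

end Vale.Agent.Lib.P034W
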