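import Mathlib
import Vale.Agent.Lib.P034W.Score

/-!
The mixed kernel at a level: nonnegativity, support, total cost; the numerator inequality.
-/

namespace Vale.Agent.Lib.P034W
open Finset
open Vale.Agent.Lib.P034

variable {X : Type*} [Fintype X] [DecidableEq X]

/-- The batch weight: the score of a nonempty set disjoint from the state. -/
noncomputable def batchW (g : Finset X → ℝ) (r : ℝ) (T B : Finset X) : ℝ :=
  if B.Nonempty ∧ Disjoint B T then score g r B T else 0

/-- The kernel at a level: a mixture of the capped kernel and the batch kernel. -/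
noncomputable def rhoK (g : Finset X → ℝ) (r eps lpp lp l Vp Lam : ℝ) (T B : Finset X) : ℝ :=
  (1 - eps) * hK g r lpp lp l T B / max (vv g r lpp lp T) Vp +
    eps * batchW g r T B / max (phiA g (3 * r) T) Lam

/-- The term of `S` in the potential at the target `I`. -/
noncomputable def tm (g : Finset X → ℝ) (r l : ℝ) (I S : Finset X) : ℝ :=
  g S * (1 / 2) ^ (hiSet g r l S I).card * (2 * r) ^ (S \ I).card

open scoped Classical in
/-- The mass of the sets with trace `A` on the target `I`. -/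
noncomputable def mT (g : Finset X → ℝ) (r lp l : ℝ) (I A : Finset X) : ℝ :=
  ∑ S ∈ univ.filter (fun S => Unc g r lp S I ∧ S ∩ I = A), tm g r l I S

variable {g : Finset X → ℝ} {r : ℝ}

lemma score_nonneg (hg : ∀ S, 0 ≤ g S) (hr0 : 0 ≤ r) (C T : Finset X) : 0 ≤ score g r C T :=
  Finset.sum_nonneg (fun S _ => mul_nonneg (hg S) (pow_nonneg (by positivity) _))

lemma hK_nonneg (hg : ∀ S, 0 ≤ g S) (hr0 : 0 ≤ r) (κ θ l : ℝ) (T B : Finset X) :
    0 ≤ hK g r κ θ l T B :=
  Finset.sum_nonneg (fun S _ => mul_nonneg (mul_nonneg (hg S) (pow_nonneg hr0 _))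
    (pow_nonneg (by positivity) _))

lemma batchW_nonneg (hg : ∀ S, 0 ≤ g S) (hr0 : 0 ≤ r) (T B : Finset X) : 0 ≤ batchW g r T B := by
  unfold batchW
  split_ifs
  · exact score_nonneg hg hr0 _ _
  · exact le_rfl

lemma tm_nonneg (hg : ∀ S, 0 ≤ g S) (hr0 : 0 ≤ r) (l : ℝ) (I S : Finset X) : 0 ≤ tm g r l I S :=
  mul_nonneg (mul_nonneg (hg S) (by positivity)) (pow_nonneg (by positivity) _)

lemma mT_nonneg (hg : ∀ S, 0 ≤ g S) (hr0 : 0 ≤ r) (lp l : ℝ) (I A : Finset X) :
    0 ≤ mT g r lp l I A :=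
  Finset.sum_nonneg (fun S _ => tm_nonneg hg hr0 l I S)

lemma vv_nonneg (hg : ∀ S, 0 ≤ g S) (hr0 : 0 ≤ r) (κ θ : ℝ) (T : Finset X) : 0 ≤ vv g r κ θ T :=
  Finset.sum_nonneg (fun S _ => mul_nonneg (mul_nonneg (hg S) (by positivity))
    (pow_nonneg (by positivity) _))

lemma hK_eq_zero_of_not_disjoint {κ θ l : ℝ} {T B : Finset X} (h : ¬ Disjoint B T) :
    hK g r κ θ l T B = 0 := by
  classical
  unfold hK
  refine Finset.sum_eq_zero (fun S hS => ?_)
  exfalso
  have hB : B ⊆ hiSet g r l S T := (Finset.mem_filter.mp hS).2.2.2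
  apply h
  rw [Finset.disjoint_left]
  intro z hz hzT
  exact (Finset.mem_sdiff.mp (hiSet_subset (hB hz))).2 hzT

lemma hK_eq_zero_of_large {n : ℕ} (hs : ∀ S : Finset X, S.card ≠ n → g S = 0) {κ θ l : ℝ}
    {T B : Finset X} (hB : n < B.card) : hK g r κ θ l T B = 0 := by
  classical
  unfold hK
  refine Finset.sum_eq_zero (fun S hS => ?_)
  have hBS : B ⊆ hiSet g r l S T := (Finset.mem_filter.mp hS).2.2.2
  have h1 : B ⊆ S := hBS.trans (hiSet_subset.trans Finset.sdiff_subset)
  have h2 : S.card ≠ n := by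
    have := Finset.card_le_card h1
    omega
  rw [hs S h2]
  ring

lemma score_eq_zero_of_large {n : ℕ} (hs : ∀ S : Finset X, S.card ≠ n → g S = 0)
    {T B : Finset X} (hB : n < B.card) : score g r B T = 0 := by
  unfold score
  refine Finset.sum_eq_zero (fun S hS => ?_)
  have h1 : B ⊆ S := (Finset.mem_filter.mp hS).2
  have h2 : S.card ≠ n := by
    have := Finset.card_le_card h1
    omega
  rw [hs S h2]
  ring

lemma batchW_eq_zero_of_large {n : ℕ} (hs : ∀ S : Finset X, S.card ≠ n → g S = 0)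
    {T B : Finset X} (hB : n < B.card) : batchW g r T B = 0 := by
  unfold batchW
  rw [score_eq_zero_of_large hs hB]
  split_ifs <;> rfl

lemma rhoK_nonneg (hg : ∀ S, 0 ≤ g S) (hr0 : 0 ≤ r) {eps lpp lp l Vp Lam : ℝ} (heps0 : 0 ≤ eps)
    (heps1 : eps ≤ 1) (hVp : 0 < Vp) (hLam : 0 < Lam) (T B : Finset X) :
    0 ≤ rhoK g r eps lpp lp l Vp Lam T B := by
  unfold rhoK
  have h1 : 0 < max (vv g r lpp lp T) Vp := lt_of_lt_of_le hVp (le_max_right _ _)
  have h2 : 0 < max (phiA g (3 * r) T) Lam := lt_of_lt_of_le hLam (le_max_right _ _)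
  have h3 := hK_nonneg hg hr0 lpp lp l T B
  have h4 := batchW_nonneg hg hr0 T B
  have h5 : 0 ≤ 1 - eps := by linarith
  positivity

lemma rhoK_eq_zero_of_large {n : ℕ} (hs : ∀ S : Finset X, S.card ≠ n → g S = 0)
    {eps lpp lp l Vp Lam : ℝ} {T B : Finset X} (hB : n < B.card) :
    rhoK g r eps lpp lp l Vp Lam T B = 0 := by
  unfold rhoK
  rw [hK_eq_zero_of_large hs hB, batchW_eq_zero_of_large hs hB]
  simp

/-- The kernel has total cost at most one. -/
lemma rhoK_sub (hg : ∀ S, 0 ≤ g S) (hr0 : 0 ≤ r) {eps lpp lp l Vp Lam : ℝ} (heps0 : 0 ≤ eps)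
    (heps1 : eps ≤ 1) (hVp : 0 < Vp) (hLam : 0 < Lam) (hl : l ≤ lp) (T : Finset X) :
    ∑ B, r ^ (B \ T).card * rhoK g r eps lpp lp l Vp Lam T B ≤ 1 := by
  classical
  set D1 := max (vv g r lpp lp T) Vp with hD1
  set D2 := max (phiA g (3 * r) T) Lam with hD2
  have hD1p : 0 < D1 := lt_of_lt_of_le hVp (le_max_right _ _)
  have hD2p : 0 < D2 := lt_of_lt_of_le hLam (le_max_right _ _)
  have hpt : ∀ B : Finset X, r ^ (B \ T).card * rhoK g r eps lpp lp l Vp Lam T B =
      (1 - eps) / D1 * (r ^ B.card * hK g r lpp lp l T B) +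
        eps / D2 * (r ^ (B \ T).card * batchW g r T B) := by
    intro B
    unfold rhoK
    rw [← hD1, ← hD2]
    by_cases hdis : Disjoint B T
    · have e : B \ T = B := Finset.sdiff_eq_self_of_disjoint hdis
      rw [e]
      field_simp
    · rw [hK_eq_zero_of_not_disjoint hdis]
      simp only [mul_zero, zero_div, zero_add]
      ring
  rw [Finset.sum_congr rfl (fun B _ => hpt B), Finset.sum_add_distrib, ← Finset.mul_sum,
    ← Finset.mul_sum, sum_hK hr0 hl]
  have h1 : (1 - eps) / D1 * vv g r lpp lp T ≤ 1 - eps := by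
    have : vv g r lpp lp T ≤ D1 := le_max_left _ _
    have h5 : 0 ≤ 1 - eps := by linarith
    calc (1 - eps) / D1 * vv g r lpp lp T ≤ (1 - eps) / D1 * D1 :=
          mul_le_mul_of_nonneg_left this (by positivity)
      _ = 1 - eps := by field_simp
  have h2 : ∑ B, r ^ (B \ T).card * batchW g r T B ≤ D2 := by
    have hle := sum_batch_le hg hr0 T
    have hD : phiA g (3 * r) T ≤ D2 := le_max_left _ _
    refine le_trans (le_of_eq ?_) (hle.trans hD)
    rw [Finset.sum_filter]
    refine Finset.sum_congr rfl (fun B _ => ?_)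
    unfold batchW
    by_cases hc : B.Nonempty ∧ Disjoint B T
    · rw [if_pos hc, if_pos hc, Finset.sdiff_eq_self_of_disjoint hc.2]
    · rw [if_neg hc, if_neg hc, mul_zero]
  have h3 : eps / D2 * ∑ B, r ^ (B \ T).card * batchW g r T B ≤ eps := by
    calc eps / D2 * ∑ B, r ^ (B \ T).card * batchW g r T B ≤ eps / D2 * D2 :=
          mul_le_mul_of_nonneg_left h2 (by positivity)
      _ = eps := by field_simp
  linarith

/-- The coefficient inequality: at the state `T` the trace of `S` on `I` outside `T` is an allowed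
step and its coefficient dominates the term of `S` at the target `I`. -/
lemma coef_ge (hg : ∀ S, 0 ≤ g S) (hr0 : 0 ≤ r) (hr1 : 2 * r ≤ 1) {T I S : Finset X} (hTI : T ⊆ I)
    {lp l : ℝ} (hU : Unc g r lp S I)
    (hA : ((S ∩ I) \ T).Nonempty → l ≤ score g r ((S ∩ I) \ T) T) :
    hiSet g r lp S T ⊆ (S ∩ I) \ T ∧ (S ∩ I) \ T ⊆ hiSet g r l S T ∧
    tm g r l I S ≤ g S * r ^ (hiSet g r l S T \ ((S ∩ I) \ T)).card *
      (2 * r) ^ ((S \ T) \ hiSet g r l S T).card := by
  set A := (S ∩ I) \ T with hAdef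
  set E := hiSet g r l S T with hE
  have hUI := unc_iff.mp hU
  have h1 : hiSet g r lp S T ⊆ A := by
    intro z hz
    obtain ⟨C, hCS, hCn, hCs, hzC⟩ := mem_hiSet.mp hz
    have hzS := Finset.mem_sdiff.mp (hCS hzC)
    by_cases hzI : z ∈ I
    · exact Finset.mem_sdiff.mpr ⟨Finset.mem_inter.mpr ⟨hzS.1, hzI⟩, hzS.2⟩
    · exfalso
      have hsub : C \ I ⊆ S \ I := by
        intro x hx
        have hx' := Finset.mem_sdiff.mp hx
        exact Finset.mem_sdiff.mpr ⟨(Finset.mem_sdiff.mp (hCS hx'.1)).1, hx'.2⟩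
      have hne : (C \ I).Nonempty := ⟨z, Finset.mem_sdiff.mpr ⟨hzC, hzI⟩⟩
      have hlt := hUI _ hsub hne
      have hle := score_mono hg hr0 hr1 (C := C) hTI
      linarith
  have hAsub : A ⊆ S \ T := by
    intro x hx
    have hx' := Finset.mem_sdiff.mp hx
    exact Finset.mem_sdiff.mpr ⟨(Finset.mem_inter.mp hx'.1).1, hx'.2⟩
  have h2 : A ⊆ E := by
    intro z hz
    have hne : A.Nonempty := ⟨z, hz⟩
    exact mem_hiSet.mpr ⟨A, hAsub, hne, hA hne, hz⟩
  refine ⟨h1, h2, ?_⟩
  -- the cardinalities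
  have hES : E ⊆ S \ T := hiSet_subset
  have hsplit : (S \ I).card = (E \ A).card + ((S \ T) \ E).card := by
    have hdisj : Disjoint (E \ A) ((S \ T) \ E) := by
      rw [Finset.disjoint_left]
      intro x hx hx'
      exact (Finset.mem_sdiff.mp hx').2 (Finset.mem_sdiff.mp hx).1
    rw [← Finset.card_union_of_disjoint hdisj]
    congr 1
    ext x
    simp only [Finset.mem_sdiff, Finset.mem_union]
    constructor
    · rintro ⟨hxS, hxI⟩
      have hxT : x ∉ T := fun h => hxI (hTI h)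
      by_cases hxE : x ∈ E
      · left
        refine ⟨hxE, fun hxA => ?_⟩
        have := (Finset.mem_sdiff.mp hxA).1
        exact hxI (Finset.mem_inter.mp this).2
      · right
        exact ⟨⟨hxS, hxT⟩, hxE⟩
    · rintro (⟨hxE, hxA⟩ | ⟨⟨hxS, hxT⟩, hxE⟩)
      · have hx' := Finset.mem_sdiff.mp (hES hxE)
        refine ⟨hx'.1, fun hxI => hxA ?_⟩
        exact Finset.mem_sdiff.mpr ⟨Finset.mem_inter.mpr ⟨hx'.1, hxI⟩, hx'.2⟩
      · refine ⟨hxS, fun hxI => hxE (h2 ?_)⟩
        exact Finset.mem_sdiff.mpr ⟨Finset.mem_inter.mpr ⟨hxS, hxI⟩, hxT⟩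
  have hsubHi : E \ A ⊆ hiSet g r l S I := by
    intro z hz
    have hz' := Finset.mem_sdiff.mp hz
    obtain ⟨C, hCS, hCn, hCs, hzC⟩ := mem_hiSet.mp hz'.1
    have hzS := Finset.mem_sdiff.mp (hCS hzC)
    have hzI : z ∉ I := by
      intro hzI
      exact hz'.2 (Finset.mem_sdiff.mpr ⟨Finset.mem_inter.mpr ⟨hzS.1, hzI⟩, hzS.2⟩)
    have hsub : C \ I ⊆ S \ I := by
      intro x hx
      have hx' := Finset.mem_sdiff.mp hx
      exact Finset.mem_sdiff.mpr ⟨(Finset.mem_sdiff.mp (hCS hx'.1)).1, hx'.2⟩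
    have hle := score_mono hg hr0 hr1 (C := C) hTI
    exact mem_hiSet.mpr ⟨C \ I, hsub, ⟨z, Finset.mem_sdiff.mpr ⟨hzC, hzI⟩⟩, hCs.trans hle,
      Finset.mem_sdiff.mpr ⟨hzC, hzI⟩⟩
  have hcardle := Finset.card_le_card hsubHi
  unfold tm
  rw [hsplit, pow_add, mul_pow 2 r (E \ A).card]
  have hhalf : ((1 : ℝ) / 2) ^ (hiSet g r l S I).card ≤ (1 / 2) ^ (E \ A).card :=
    pow_le_pow_of_le_one (by norm_num) (by norm_num) hcardle
  have e2 : ((1 : ℝ) / 2) ^ (E \ A).card * 2 ^ (E \ A).card = 1 := by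
    rw [← mul_pow]
    norm_num
  have hnn1 : 0 ≤ g S * (r ^ (E \ A).card * (2 * r) ^ ((S \ T) \ E).card * 2 ^ (E \ A).card) :=
    mul_nonneg (hg S) (by positivity)
  calc g S * (1 / 2) ^ (hiSet g r l S I).card *
        (2 ^ (E \ A).card * r ^ (E \ A).card * (2 * r) ^ ((S \ T) \ E).card)
      = (1 / 2) ^ (hiSet g r l S I).card *
          (g S * (r ^ (E \ A).card * (2 * r) ^ ((S \ T) \ E).card * 2 ^ (E \ A).card)) := by ring
    _ ≤ (1 / 2) ^ (E \ A).card *
          (g S * (r ^ (E \ A).card * (2 * r) ^ ((S \ T) \ E).card * 2 ^ (E \ A).card)) :=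
        mul_le_mul_of_nonneg_right hhalf hnn1
    _ = ((1 / 2) ^ (E \ A).card * 2 ^ (E \ A).card) *
          (g S * r ^ (E \ A).card * (2 * r) ^ ((S \ T) \ E).card) := by ring
    _ = _ := by rw [e2, one_mul]

/-- The mass with trace `A` is at most the score of `A \ T` at `T`. -/
lemma mT_le_score (hg : ∀ S, 0 ≤ g S) (hr0 : 0 ≤ r) {T I : Finset X} (hTI : T ⊆ I) (lp l : ℝ)
    (A : Finset X) : mT g r lp l I A ≤ score g r (A \ T) T := by
  classical
  unfold mT score
  have hterm : ∀ S ∈ univ.filter (fun S => Unc g r lp S I ∧ S ∩ I = A),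
      tm g r l I S ≤ g S * (2 * r) ^ (S \ (T ∪ A \ T)).card := by
    intro S hS
    have hSA : S ∩ I = A := (Finset.mem_filter.mp hS).2.2
    have e : S \ (T ∪ A \ T) = S \ I := by
      ext x
      simp only [Finset.mem_sdiff, Finset.mem_union, not_or, not_and, not_not]
      constructor
      · rintro ⟨hxS, hxT, hxA⟩
        refine ⟨hxS, fun hxI => ?_⟩
        have : x ∈ A := by
          rw [← hSA]
          exact Finset.mem_inter.mpr ⟨hxS, hxI⟩
        exact hxT (hxA this)
      · rintro ⟨hxS, hxI⟩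
        refine ⟨hxS, fun h => hxI (hTI h), fun hxA => ?_⟩
        rw [← hSA] at hxA
        exact absurd (Finset.mem_inter.mp hxA).2 hxI
    rw [e]
    unfold tm
    have h1 : ((1 : ℝ) / 2) ^ (hiSet g r l S I).card ≤ 1 :=
      pow_le_one₀ (by norm_num) (by norm_num)
    have h2 : 0 ≤ g S * (2 * r) ^ (S \ I).card := mul_nonneg (hg S) (pow_nonneg (by positivity) _)
    calc g S * (1 / 2) ^ (hiSet g r l S I).card * (2 * r) ^ (S \ I).card
        = (1 / 2) ^ (hiSet g r l S I).card * (g S * (2 * r) ^ (S \ I).card) := by ring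
      _ ≤ 1 * (g S * (2 * r) ^ (S \ I).card) := mul_le_mul_of_nonneg_right h1 h2
      _ = _ := one_mul _
  refine (Finset.sum_le_sum hterm).trans (Finset.sum_le_sum_of_subset_of_nonneg ?_ ?_)
  · intro S hS
    have hSA : S ∩ I = A := (Finset.mem_filter.mp hS).2.2
    refine Finset.mem_filter.mpr ⟨Finset.mem_univ _, ?_⟩
    intro x hx
    have : x ∈ A := (Finset.mem_sdiff.mp hx).1
    rw [← hSA] at this
    exact (Finset.mem_inter.mp this).1
  · intro S _ _
    exact mul_nonneg (hg S) (pow_nonneg (by positivity) _)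

/-- The potential at the target is the sum of the masses of the traces. -/
lemma vv_eq_sum_mT (lp l : ℝ) (I : Finset X) :
    vv g r lp l I = ∑ A ∈ I.powerset, mT g r lp l I A := by
  classical
  unfold vv mT
  have : ∀ A ∈ I.powerset, ∑ S ∈ univ.filter (fun S => Unc g r lp S I ∧ S ∩ I = A), tm g r l I S =
      ∑ S ∈ (univ.filter (fun S => Unc g r lp S I)).filter (fun S => S ∩ I = A), tm g r l I S := by
    intro A _
    rw [Finset.filter_filter]
  rw [Finset.sum_congr rfl this, Finset.sum_fiberwise_of_maps_to]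
  · rfl
  · intro S _
    exact Finset.mem_powerset.mpr Finset.inter_subset_right

/-- The mass of a trace vanishes if the trace is too large. -/
lemma mT_eq_zero_of_large {n : ℕ} (hs : ∀ S : Finset X, S.card ≠ n → g S = 0) {lp l : ℝ}
    {I A : Finset X} (hA : n < A.card) : mT g r lp l I A = 0 := by
  classical
  unfold mT
  refine Finset.sum_eq_zero (fun S hS => ?_)
  have hSA : S ∩ I = A := (Finset.mem_filter.mp hS).2.2
  have h1 : A ⊆ S := by
    rw [← hSA]
    exact Finset.inter_subset_left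
  have h2 : S.card ≠ n := by
    have := Finset.card_le_card h1
    omega
  unfold tm
  rw [hs S h2]
  ring

end Vale.Agent.Lib.P034W
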