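import Mathlib
import Vale.Agent.Lib.P034W.Kernel

/-!
One target: the numerator inequality, the family of heavy traces, the path to a typical state,
the gain at typical states, and the resulting mass of the chain on the subsets of the core.
-/

namespace Vale.Agent.Lib.P034W
open Finset
open Vale.Agent.Lib.P034

variable {X : Type*} [Fintype X] [DecidableEq X]
variable {g : Finset X → ℝ} {r : ℝ}

open scoped Classical in
/-- The numerator inequality. -/
lemma numerator (hg : ∀ S, 0 ≤ g S) (hr0 : 0 ≤ r) (hr1 : 2 * r ≤ 1) {T I : Finset X} (hTI : T ⊆ I)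
    {lpp lp l : ℝ} (W : Finset (Finset X))
    (hW : ∀ A ∈ W, (A \ T).Nonempty → l ≤ score g r (A \ T) T) :
    ∑ S ∈ univ.filter (fun S => Unc g r lp S I ∧ S ∩ I ∈ W ∧ Unc g r lpp S T), tm g r l I S ≤
      ∑ B ∈ (W.biUnion id \ T).powerset, hK g r lpp lp l T B := by
  set P := (W.biUnion id \ T).powerset with hP
  have h1 : ∑ B ∈ P, hK g r lpp lp l T B = ∑ S, ∑ B ∈ P,
      (if Unc g r lpp S T ∧ hiSet g r lp S T ⊆ B ∧ B ⊆ hiSet g r l S T then
        g S * r ^ (hiSet g r l S T \ B).card * (2 * r) ^ ((S \ T) \ hiSet g r l S T).card else 0) := by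
    rw [Finset.sum_comm]
    refine Finset.sum_congr rfl (fun B _ => ?_)
    unfold hK
    rw [Finset.sum_filter]
  rw [h1]
  have hnn : ∀ (S B : Finset X), 0 ≤ (if Unc g r lpp S T ∧ hiSet g r lp S T ⊆ B ∧
      B ⊆ hiSet g r l S T then
        g S * r ^ (hiSet g r l S T \ B).card * (2 * r) ^ ((S \ T) \ hiSet g r l S T).card else 0) := by
    intro S B
    split_ifs
    · exact mul_nonneg (mul_nonneg (hg S) (pow_nonneg hr0 _)) (pow_nonneg (by positivity) _)
    · exact le_rfl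
  refine le_trans (Finset.sum_le_sum (fun S hS => ?_))
    (Finset.sum_le_sum_of_subset_of_nonneg (Finset.subset_univ _)
      (fun S _ _ => Finset.sum_nonneg (fun B _ => hnn S B)))
  obtain ⟨hU, hSW, hUT⟩ := (Finset.mem_filter.mp hS).2
  have hA : ((S ∩ I) \ T).Nonempty → l ≤ score g r ((S ∩ I) \ T) T := hW _ hSW
  obtain ⟨c1, c2, c3⟩ := coef_ge hg hr0 hr1 hTI hU hA
  have hBP : (S ∩ I) \ T ∈ P := by
    rw [hP, Finset.mem_powerset]
    intro x hx
    have hx' := Finset.mem_sdiff.mp hx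
    exact Finset.mem_sdiff.mpr ⟨Finset.mem_biUnion.mpr ⟨_, hSW, hx'.1⟩, hx'.2⟩
  refine le_trans ?_ (Finset.single_le_sum (f := fun B =>
    (if Unc g r lpp S T ∧ hiSet g r lp S T ⊆ B ∧ B ⊆ hiSet g r l S T then
      g S * r ^ (hiSet g r l S T \ B).card * (2 * r) ^ ((S \ T) \ hiSet g r l S T).card else 0))
    (fun B _ => hnn S B) hBP)
  rw [if_pos ⟨hUT, c1, c2⟩]
  exact c3

/-- The count of the sets of bounded size in a finite set. -/
lemma card_small_subsets (I : Finset X) (n : ℕ) :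
    ((I.powerset.filter (fun A => A.card ≤ n)).card : ℝ) ≤ ((I.card : ℝ) + 1) ^ n := by
  have hnat : (I.powerset.filter (fun A => A.card ≤ n)).card ≤ (I.card + 1) ^ n := by
    induction n with
    | zero =>
      have : I.powerset.filter (fun A => A.card ≤ 0) ⊆ {∅} := by
        intro A hA
        have := (Finset.mem_filter.mp hA).2
        simp only [Finset.mem_singleton]
        exact Finset.card_eq_zero.mp (Nat.le_zero.mp this)
      simpa using Finset.card_le_card this
    | succ n ih =>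
      have hsub : I.powerset.filter (fun A => A.card ≤ n + 1) ⊆
          I.powerset.filter (fun A => A.card ≤ n) ∪ I.powersetCard (n + 1) := by
        intro A hA
        obtain ⟨h1, h2⟩ := Finset.mem_filter.mp hA
        rcases Nat.lt_or_ge n A.card with h | h
        · exact Finset.mem_union_right _
            (Finset.mem_powersetCard.mpr ⟨Finset.mem_powerset.mp h1, by omega⟩)
        · exact Finset.mem_union_left _ (Finset.mem_filter.mpr ⟨h1, h⟩)
      have h3 := (Finset.card_le_card hsub).trans (Finset.card_union_le _ _)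
      rw [Finset.card_powersetCard] at h3
      have h4 : (I.card).choose (n + 1) ≤ I.card * (I.card + 1) ^ n := by
        calc (I.card).choose (n + 1) ≤ I.card ^ (n + 1) := Nat.choose_le_pow _ _
          _ = I.card * I.card ^ n := by ring
          _ ≤ I.card * (I.card + 1) ^ n :=
              Nat.mul_le_mul_left _ (Nat.pow_le_pow_left (Nat.le_succ _) _)
      calc _ ≤ _ := h3
        _ ≤ (I.card + 1) ^ n + I.card * (I.card + 1) ^ n := add_le_add ih h4
        _ = (I.card + 1) ^ (n + 1) := by ring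
  exact_mod_cast hnat

open scoped Classical in
/-- Only few sets can carry a large share of the mass of `m`: they are all contained in a union of
few members of `W`. -/
lemma exists_hit (W : Finset (Finset X)) (m : Finset X → ℝ) (hm : ∀ A, 0 ≤ m A) {n t0 : ℕ}
    (hcard : ∀ A ∈ W, A.card ≤ n) {τ : ℝ} (hτ : 0 < τ) (hv : 0 < ∑ A ∈ W, m A)
    (ht0 : (2 : ℝ) ^ n ≤ τ * t0) :
    ∃ 𝒜 ⊆ W, 𝒜.card ≤ t0 ∧ ∀ C : Finset X, C.Nonempty →
      τ * ∑ A ∈ W, m A ≤ ∑ A ∈ W.filter (fun A => C ⊆ A), m A → C ⊆ 𝒜.biUnion id := by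
  set v := ∑ A ∈ W, m A with hvdef
  set HH : Finset (Finset X) := (W.biUnion id).powerset.filter (fun C => C.Nonempty ∧
    τ * v ≤ ∑ A ∈ W.filter (fun A => C ⊆ A), m A) with hHH
  have hpos : ∀ C ∈ HH, ∃ A ∈ W, C ⊆ A := by
    intro C hC
    have h1 := (Finset.mem_filter.mp hC).2.2
    have h2 : 0 < ∑ A ∈ W.filter (fun A => C ⊆ A), m A := lt_of_lt_of_le (mul_pos hτ hv) h1
    obtain ⟨A, hA, _⟩ := Finset.exists_ne_zero_of_sum_ne_zero h2.ne'
    exact ⟨A, (Finset.mem_filter.mp hA).1, (Finset.mem_filter.mp hA).2⟩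
  have hcount : (HH.card : ℝ) * (τ * v) ≤ 2 ^ n * v := by
    calc (HH.card : ℝ) * (τ * v) = ∑ _C ∈ HH, (τ * v) := by
          rw [Finset.sum_const, nsmul_eq_mul]
      _ ≤ ∑ C ∈ HH, ∑ A ∈ W.filter (fun A => C ⊆ A), m A :=
          Finset.sum_le_sum (fun C hC => (Finset.mem_filter.mp hC).2.2)
      _ = ∑ C ∈ HH, ∑ A ∈ W, (if C ⊆ A then m A else 0) := by
          refine Finset.sum_congr rfl (fun C _ => ?_)
          rw [Finset.sum_filter]
      _ = ∑ A ∈ W, ∑ C ∈ HH, (if C ⊆ A then m A else 0) := Finset.sum_comm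
      _ ≤ ∑ A ∈ W, 2 ^ n * m A := by
          refine Finset.sum_le_sum (fun A hA => ?_)
          rw [← Finset.sum_filter, Finset.sum_const, nsmul_eq_mul]
          refine mul_le_mul_of_nonneg_right ?_ (hm A)
          have hsub : HH.filter (fun C => C ⊆ A) ⊆ A.powerset := by
            intro C hC
            exact Finset.mem_powerset.mpr (Finset.mem_filter.mp hC).2
          have h1 := Finset.card_le_card hsub
          rw [Finset.card_powerset] at h1
          have h2 : 2 ^ A.card ≤ 2 ^ n := Nat.pow_le_pow_right (by norm_num) (hcard A hA)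
          exact_mod_cast h1.trans h2
      _ = 2 ^ n * v := by rw [hvdef, Finset.mul_sum]
  have hHcard : HH.card ≤ t0 := by
    have h1 : (HH.card : ℝ) * τ ≤ 2 ^ n := by
      have := le_of_mul_le_mul_right (by
        calc (HH.card : ℝ) * τ * v = (HH.card : ℝ) * (τ * v) := by ring
          _ ≤ 2 ^ n * v := hcount) hv
      exact this
    have h2 : (HH.card : ℝ) * τ ≤ t0 * τ := by
      calc (HH.card : ℝ) * τ ≤ 2 ^ n := h1
        _ ≤ τ * t0 := ht0
        _ = t0 * τ := mul_comm _ _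
    have h3 : (HH.card : ℝ) ≤ t0 := le_of_mul_le_mul_right h2 hτ
    exact_mod_cast h3
  choose! Af hAf1 hAf2 using hpos
  refine ⟨HH.image Af, ?_, (Finset.card_image_le).trans hHcard, ?_⟩
  · intro A hA
    obtain ⟨C, hC, rfl⟩ := Finset.mem_image.mp hA
    exact hAf1 C hC
  · intro C hCn hCs
    have h2 : 0 < ∑ A ∈ W.filter (fun A => C ⊆ A), m A := lt_of_lt_of_le (mul_pos hτ hv) hCs
    obtain ⟨A, hA, _⟩ := Finset.exists_ne_zero_of_sum_ne_zero h2.ne'
    have hCJ : C ⊆ W.biUnion id := by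
      intro x hx
      exact Finset.mem_biUnion.mpr ⟨A, (Finset.mem_filter.mp hA).1, (Finset.mem_filter.mp hA).2 hx⟩
    have hCH : C ∈ HH := Finset.mem_filter.mpr ⟨Finset.mem_powerset.mpr hCJ, hCn, hCs⟩
    intro x hx
    exact Finset.mem_biUnion.mpr ⟨Af C, Finset.mem_image_of_mem _ hCH, hAf2 C hCH hx⟩

/-- A path through a finite family of sets. -/
lemma path_lower {ρ : Finset X → Finset X → ℝ} (hρ : ∀ T B, 0 ≤ ρ T B) (𝒜 : Finset (Finset X))
    {η : ℝ} (hη0 : 0 < η) (hη1 : η ≤ 1)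
    (hstep : ∀ 𝒜' ⊆ 𝒜, ∀ A ∈ 𝒜, (A \ 𝒜'.biUnion id).Nonempty →
      η ≤ ρ (𝒜'.biUnion id) (A \ 𝒜'.biUnion id)) :
    ∃ t ≤ 𝒜.card, η ^ 𝒜.card ≤ chainR ρ t (𝒜.biUnion id) := by
  induction 𝒜 using Finset.induction_on with
  | empty =>
    refine ⟨0, le_rfl, ?_⟩
    simp [chainR]
  | insert A 𝒜' hA ih =>
    obtain ⟨t, ht, hw⟩ := ih (fun 𝒜'' h'' A' hA' hne =>
      hstep 𝒜'' (h''.trans (Finset.subset_insert _ _)) A' (Finset.mem_insert_of_mem hA') hne)
    set T := 𝒜'.biUnion id with hT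
    have hU : (insert A 𝒜').biUnion id = T ∪ (A \ T) := by
      rw [Finset.biUnion_insert, Finset.union_sdiff_self_eq_union, Finset.union_comm]
      rfl
    rw [Finset.card_insert_of_notMem hA, hU]
    by_cases hne : (A \ T).Nonempty
    · have hs := hstep 𝒜' (Finset.subset_insert _ _) A (Finset.mem_insert_self _ _) hne
      refine ⟨t + 1, by omega, ?_⟩
      calc η ^ (𝒜'.card + 1) = η ^ 𝒜'.card * η := pow_succ _ _
        _ ≤ chainR ρ t T * ρ T (A \ T) :=
            mul_le_mul hw hs hη0.le (chainR_nonneg hρ t T)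
        _ ≤ _ := chainR_step_ge hρ t T (A \ T)
    · rw [Finset.not_nonempty_iff_eq_empty] at hne
      rw [hne, Finset.union_empty]
      refine ⟨t, by omega, ?_⟩
      calc η ^ (𝒜'.card + 1) = η ^ 𝒜'.card * η := pow_succ _ _
        _ ≤ η ^ 𝒜'.card * 1 := mul_le_mul_of_nonneg_left hη1 (by positivity)
        _ = η ^ 𝒜'.card := mul_one _
        _ ≤ _ := hw

open scoped Classical in
/-- The mass of a family of traces as a sum over sets. -/
lemma sum_mT_eq (lp l : ℝ) (I : Finset X) (W : Finset (Finset X)) :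
    ∑ A ∈ W, mT g r lp l I A =
      ∑ S ∈ univ.filter (fun S => Unc g r lp S I ∧ S ∩ I ∈ W), tm g r l I S := by
  unfold mT
  rw [← Finset.sum_fiberwise_of_maps_to (s := univ.filter (fun S => Unc g r lp S I ∧ S ∩ I ∈ W))
    (t := W) (g := fun S => S ∩ I) (fun S hS => (Finset.mem_filter.mp hS).2.2)]
  refine Finset.sum_congr rfl (fun A hA => Finset.sum_congr ?_ (fun _ _ => rfl))
  ext S
  simp only [Finset.mem_filter, Finset.mem_univ, true_and]
  constructor
  · rintro ⟨h1, h2⟩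
    exact ⟨⟨h1, h2 ▸ hA⟩, h2⟩
  · rintro ⟨⟨h1, _⟩, h2⟩
    exact ⟨h1, h2⟩

open scoped Classical in
/-- The gain of the kernel at a typical state. -/
lemma gain_at (hg : ∀ S, 0 ≤ g S) (hr0 : 0 < r) (hr1 : 2 * r ≤ 1)
    {lpp lp l Vp Lam eps β τ : ℝ} (hlp : lp ≤ lpp) (hlpp : 0 < lpp) (hVp : 0 < Vp)
    (hLam : 0 < Lam) (heps0 : 0 < eps) (heps1 : eps < 1) (hβ2 : β ≤ 2)
    {T I : Finset X} (hTI : T ⊆ I) (W : Finset (Finset X)) (hWI : ∀ A ∈ W, A ⊆ I)
    (hscore : ∀ A ∈ W, (A \ T).Nonempty → l ≤ score g r (A \ T) T)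
    (hvT : vv g r lpp lp T ≤ Vp) (hphi : phiA g (3 * r) T ≤ Lam)
    (hτ : τ = eps ^ 2 * lpp / (2 * Lam))
    (hv0 : 0 ≤ ∑ A ∈ W, mT g r lp l I A)
    (hhit : ∀ C : Finset X, C.Nonempty → Disjoint C T → C ⊆ W.biUnion id →
      ∑ A ∈ W.filter (fun A => C ⊆ A), mT g r lp l I A ≤ τ * ∑ A ∈ W, mT g r lp l I A)
    (hmain : β * Vp ≤ (1 - eps) ^ 2 * ∑ A ∈ W, mT g r lp l I A) :
    β ≤ ∑ B ∈ (W.biUnion id \ T).powerset, rhoK g r eps lpp lp l Vp Lam T B := by
  set J := W.biUnion id with hJ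
  set v' := ∑ A ∈ W, mT g r lp l I A with hv'
  set P := (J \ T).powerset with hP
  have hm1 : max (vv g r lpp lp T) Vp = Vp := max_eq_right hvT
  have hm2 : max (phiA g (3 * r) T) Lam = Lam := max_eq_right hphi
  have hsum : ∑ B ∈ P, rhoK g r eps lpp lp l Vp Lam T B =
      (1 - eps) / Vp * ∑ B ∈ P, hK g r lpp lp l T B + eps / Lam * ∑ B ∈ P, batchW g r T B := by
    rw [Finset.mul_sum, Finset.mul_sum, ← Finset.sum_add_distrib]
    refine Finset.sum_congr rfl (fun B _ => ?_)
    unfold rhoK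
    rw [hm1, hm2]
    field_simp
  rw [hsum]
  have h1eps : 0 < 1 - eps := by linarith
  have hHK0 : 0 ≤ ∑ B ∈ P, hK g r lpp lp l T B :=
    Finset.sum_nonneg (fun B _ => hK_nonneg hg hr0.le _ _ _ _ _)
  have hB0 : 0 ≤ ∑ B ∈ P, batchW g r T B :=
    Finset.sum_nonneg (fun B _ => batchW_nonneg hg hr0.le _ _)
  set Cc := P.filter (fun C => C.Nonempty ∧ lpp ≤ score g r C T) with hCc
  have hbatch : (Cc.card : ℝ) * lpp ≤ ∑ B ∈ P, batchW g r T B := by
    calc (Cc.card : ℝ) * lpp = ∑ _C ∈ Cc, lpp := by rw [Finset.sum_const, nsmul_eq_mul]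
      _ ≤ ∑ C ∈ Cc, batchW g r T C := by
          refine Finset.sum_le_sum (fun C hC => ?_)
          obtain ⟨hCP, hCn, hCs⟩ := Finset.mem_filter.mp hC
          have hCsub : C ⊆ J \ T := Finset.mem_powerset.mp hCP
          have hdis : Disjoint C T := by
            rw [Finset.disjoint_left]
            intro x hx hxT
            exact (Finset.mem_sdiff.mp (hCsub hx)).2 hxT
          unfold batchW
          rw [if_pos ⟨hCn, hdis⟩]
          exact hCs
      _ ≤ _ := Finset.sum_le_sum_of_subset_of_nonneg (Finset.filter_subset _ _)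
          (fun B _ _ => batchW_nonneg hg hr0.le _ _)
  by_cases hcase : 2 * Lam ≤ eps * ((Cc.card : ℝ) * lpp)
  · -- many present sets of large score: the batch part gains
    have h1 : 2 ≤ eps / Lam * ∑ B ∈ P, batchW g r T B := by
      have h2 : eps * ((Cc.card : ℝ) * lpp) ≤ eps * ∑ B ∈ P, batchW g r T B :=
        mul_le_mul_of_nonneg_left hbatch heps0.le
      rw [div_mul_eq_mul_div, le_div_iff₀ hLam]
      linarith
    have h3 : 0 ≤ (1 - eps) / Vp * ∑ B ∈ P, hK g r lpp lp l T B :=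
      mul_nonneg (div_nonneg h1eps.le hVp.le) hHK0
    linarith
  · -- few present sets of large score: the capped kernel gains
    push Not at hcase
    have hcapcount : (Cc.card : ℝ) * τ ≤ eps := by
      rw [hτ]
      have h2 : (Cc.card : ℝ) * (eps ^ 2 * lpp / (2 * Lam)) =
          eps * (eps * ((Cc.card : ℝ) * lpp)) / (2 * Lam) := by
        field_simp
      rw [h2, div_le_iff₀ (by positivity)]
      nlinarith
    -- decompose the mass into uncapped and capped sets
    have hmass := sum_mT_eq (g := g) (r := r) lp l I W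
    set Sall := univ.filter (fun S => Unc g r lp S I ∧ S ∩ I ∈ W) with hSall
    have hsplit := Finset.sum_filter_add_sum_filter_not Sall (fun S => Unc g r lpp S T)
      (fun S => tm g r l I S)
    have hunc : ∑ S ∈ Sall.filter (fun S => Unc g r lpp S T), tm g r l I S ≤
        ∑ B ∈ P, hK g r lpp lp l T B := by
      have hnum := numerator (lpp := lpp) (lp := lp) (l := l) hg hr0.le hr1 hTI W hscore
      refine le_trans (le_of_eq ?_) hnum
      refine Finset.sum_congr ?_ (fun _ _ => rfl)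
      ext S
      simp only [hSall, Finset.mem_filter, Finset.mem_univ, true_and, and_assoc]
    have hcap : ∑ S ∈ Sall.filter (fun S => ¬ Unc g r lpp S T), tm g r l I S ≤ eps * v' := by
      have htmnn : ∀ S, 0 ≤ tm g r l I S := tm_nonneg hg hr0.le l I
      have hptw : ∀ S ∈ Sall.filter (fun S => ¬ Unc g r lpp S T),
          tm g r l I S ≤ ∑ C ∈ Cc, (if C ⊆ S ∩ I then tm g r l I S else 0) := by
        intro S hS
        obtain ⟨hS1, hS2⟩ := Finset.mem_filter.mp hS
        obtain ⟨hS3, hS4⟩ := (Finset.mem_filter.mp hS1).2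
        rw [unc_iff] at hS2
        push Not at hS2
        obtain ⟨C, hCS, hCn, hCs⟩ := hS2
        have hCI : C ⊆ I := by
          intro z hz
          by_contra hzI
          have hsub : C \ I ⊆ S \ I := by
            intro x hx
            have hx' := Finset.mem_sdiff.mp hx
            exact Finset.mem_sdiff.mpr ⟨(Finset.mem_sdiff.mp (hCS hx'.1)).1, hx'.2⟩
          have hlt := (unc_iff.mp hS3) _ hsub ⟨z, Finset.mem_sdiff.mpr ⟨hz, hzI⟩⟩
          have hle := score_mono hg hr0.le hr1 (C := C) hTI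
          linarith
        have hCSI : C ⊆ S ∩ I := by
          intro x hx
          exact Finset.mem_inter.mpr ⟨(Finset.mem_sdiff.mp (hCS hx)).1, hCI hx⟩
        have hCJT : C ⊆ J \ T := by
          intro x hx
          refine Finset.mem_sdiff.mpr ⟨?_, (Finset.mem_sdiff.mp (hCS hx)).2⟩
          exact Finset.mem_biUnion.mpr ⟨S ∩ I, hS4, hCSI hx⟩
        have hCC : C ∈ Cc := Finset.mem_filter.mpr ⟨Finset.mem_powerset.mpr hCJT, hCn, hCs⟩
        refine le_trans (le_of_eq ?_) (Finset.single_le_sum (f := fun C =>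
          (if C ⊆ S ∩ I then tm g r l I S else 0)) (fun C _ => ?_) hCC)
        · rw [if_pos hCSI]
        · split_ifs
          · exact htmnn S
          · exact le_rfl
      calc ∑ S ∈ Sall.filter (fun S => ¬ Unc g r lpp S T), tm g r l I S
          ≤ ∑ S ∈ Sall.filter (fun S => ¬ Unc g r lpp S T), ∑ C ∈ Cc,
              (if C ⊆ S ∩ I then tm g r l I S else 0) := Finset.sum_le_sum hptw
        _ ≤ ∑ S ∈ Sall, ∑ C ∈ Cc, (if C ⊆ S ∩ I then tm g r l I S else 0) := by
            refine Finset.sum_le_sum_of_subset_of_nonneg (Finset.filter_subset _ _) (fun S _ _ => ?_)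
            refine Finset.sum_nonneg (fun C _ => ?_)
            split_ifs
            · exact htmnn S
            · exact le_rfl
        _ = ∑ C ∈ Cc, ∑ S ∈ Sall, (if C ⊆ S ∩ I then tm g r l I S else 0) := Finset.sum_comm
        _ ≤ ∑ _C ∈ Cc, τ * v' := by
            refine Finset.sum_le_sum (fun C hC => ?_)
            obtain ⟨hCP, hCn, _⟩ := Finset.mem_filter.mp hC
            have hCsub : C ⊆ J \ T := Finset.mem_powerset.mp hCP
            have hdis : Disjoint C T := by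
              rw [Finset.disjoint_left]
              intro x hx hxT
              exact (Finset.mem_sdiff.mp (hCsub hx)).2 hxT
            have hCJ : C ⊆ J := hCsub.trans Finset.sdiff_subset
            refine le_trans (le_of_eq ?_) (hhit C hCn hdis hCJ)
            rw [sum_mT_eq, ← Finset.sum_filter]
            refine Finset.sum_congr ?_ (fun _ _ => rfl)
            ext S
            simp only [hSall, Finset.mem_filter, Finset.mem_univ, true_and, and_assoc]
        _ = (Cc.card : ℝ) * τ * v' := by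
            rw [Finset.sum_const, nsmul_eq_mul]
            ring
        _ ≤ eps * v' := mul_le_mul_of_nonneg_right hcapcount hv0
    have hnum2 : (1 - eps) * v' ≤ ∑ B ∈ P, hK g r lpp lp l T B := by
      have : v' = ∑ S ∈ Sall, tm g r l I S := hmass
      nlinarith
    have h1 : β ≤ (1 - eps) / Vp * ∑ B ∈ P, hK g r lpp lp l T B := by
      rw [div_mul_eq_mul_div, le_div_iff₀ hVp]
      calc β * Vp ≤ (1 - eps) ^ 2 * v' := hmain
        _ = (1 - eps) * ((1 - eps) * v') := by ring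
        _ ≤ _ := mul_le_mul_of_nonneg_left hnum2 h1eps.le
    have h3 : 0 ≤ eps / Lam * ∑ B ∈ P, batchW g r T B :=
      mul_nonneg (div_nonneg heps0.le hLam.le) hB0
    linarith

open scoped Classical in
/-- The mass of the chain on the subsets of the core of a target. -/
theorem target_mass (hg : ∀ S, 0 ≤ g S) {n : ℕ} (hs : ∀ S : Finset X, S.card ≠ n → g S = 0)
    (hr0 : 0 < r) (hr1 : 2 * r ≤ 1)
    {lpp lp l Vp V Lam eps β : ℝ} (hl : 0 < l) (hllp : l ≤ lp) (hlp : lp ≤ lpp) (hVp : 0 < Vp)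
    (hV : 0 < V) (hLam : 0 < Lam) (heps0 : 0 < eps) (heps1 : eps < 1) (hβ1 : 1 ≤ β) (hβ2 : β ≤ 2)
    (hratio : β * Vp ≤ (1 - eps) ^ 3 * V) (hη : eps * l ≤ Lam)
    {I : Finset X} {Np t0 k : ℕ}
    (hlight : ((I.card : ℝ) + 1) ^ n * l ≤ eps * V)
    (hv : V < vv g r lp l I)
    (hgood : ∀ T ⊆ I, T.card ≤ Np → vv g r lpp lp T ≤ Vp ∧ phiA g (3 * r) T ≤ Lam)
    (ht0 : 2 ^ (n + 1) * Lam ≤ eps ^ 2 * lpp * t0)
    (hsize : t0 * n ≤ Np) (hk : k * n ≤ Np) (ht0k : t0 ≤ k) :
    ∃ J ⊆ I, (∀ x ∈ J, ∃ A ⊆ J, x ∈ A ∧ A.card ≤ n ∧ l ≤ score g r A ∅) ∧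
      (eps * l / Lam) ^ t0 * β ^ (k - t0) ≤
        ∑ T ∈ J.powerset, chainR (rhoK g r eps lpp lp l Vp Lam) k T := by
  set W := I.powerset.filter (fun A => l ≤ mT g r lp l I A) with hWdef
  set J := W.biUnion id with hJdef
  set v' := ∑ A ∈ W, mT g r lp l I A with hv'def
  have hm0 : ∀ A, 0 ≤ mT g r lp l I A := mT_nonneg hg hr0.le lp l I
  have hWI : ∀ A ∈ W, A ⊆ I := fun A hA => Finset.mem_powerset.mp (Finset.mem_filter.mp hA).1
  have hWl : ∀ A ∈ W, l ≤ mT g r lp l I A := fun A hA => (Finset.mem_filter.mp hA).2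
  have hWn : ∀ A ∈ W, A.card ≤ n := by
    intro A hA
    by_contra hc
    have h0 := mT_eq_zero_of_large (g := g) (r := r) (lp := lp) (l := l) (I := I) hs (not_le.mp hc)
    have := hWl A hA
    linarith
  have hJI : J ⊆ I := by
    intro x hx
    obtain ⟨A, hA, hxA⟩ := Finset.mem_biUnion.mp hx
    exact hWI A hA hxA
  have heps1' : 0 < 1 - eps := by linarith
  -- the light traces
  have hlightsum : vv g r lp l I ≤ v' + eps * V := by
    rw [vv_eq_sum_mT, ← Finset.sum_filter_add_sum_filter_not I.powerset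
      (fun A => l ≤ mT g r lp l I A)]
    have h1 : ∑ A ∈ I.powerset.filter (fun A => ¬ l ≤ mT g r lp l I A), mT g r lp l I A ≤
        ∑ A ∈ I.powerset.filter (fun A => A.card ≤ n), l := by
      rw [Finset.sum_filter, Finset.sum_filter]
      refine Finset.sum_le_sum (fun A _ => ?_)
      by_cases h2 : l ≤ mT g r lp l I A
      · rw [if_neg (not_not.mpr h2)]
        split_ifs
        · exact hl.le
        · exact le_rfl
      · rw [if_pos h2]
        by_cases h3 : A.card ≤ n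
        · rw [if_pos h3]
          exact (not_le.mp h2).le
        · rw [if_neg h3]
          exact (mT_eq_zero_of_large hs (not_le.mp h3)).le
    have h2 : ∑ A ∈ I.powerset.filter (fun A => A.card ≤ n), l ≤ ((I.card : ℝ) + 1) ^ n * l := by
      rw [Finset.sum_const, nsmul_eq_mul]
      exact mul_le_mul_of_nonneg_right (card_small_subsets I n) hl.le
    linarith
  have hv'low : (1 - eps) * V ≤ v' := by linarith
  have hv'pos : 0 < v' := lt_of_lt_of_le (mul_pos heps1' hV) hv'low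
  have hlpp : 0 < lpp := by linarith
  -- the hit family
  set τ : ℝ := eps ^ 2 * lpp / (2 * Lam) with hτdef
  have hτ0 : 0 < τ := by positivity
  have hτt0 : (2 : ℝ) ^ n ≤ τ * t0 := by
    rw [hτdef]
    have h1 : eps ^ 2 * lpp / (2 * Lam) * t0 = (eps ^ 2 * lpp * t0) / (2 * Lam) := by ring
    rw [h1, le_div_iff₀ (by positivity)]
    have h2 : (2 : ℝ) ^ (n + 1) = 2 * 2 ^ n := by ring
    rw [h2] at ht0
    nlinarith
  obtain ⟨𝒜, h𝒜W, h𝒜c, hhit⟩ := exists_hit W (mT g r lp l I) hm0 hWn hτ0 hv'pos hτt0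
  set Ts := 𝒜.biUnion id with hTs
  have hTsJ : Ts ⊆ J := Finset.biUnion_subset_biUnion_of_subset_left _ h𝒜W
  set ρ := rhoK g r eps lpp lp l Vp Lam with hρdef
  have hρ0 : ∀ T B, 0 ≤ ρ T B := rhoK_nonneg hg hr0.le heps0.le heps1.le hVp hLam
  have hρs : ∀ T B : Finset X, n < B.card → ρ T B = 0 := fun T B hB => rhoK_eq_zero_of_large hs hB
  -- the scores of the traces
  have hscore : ∀ T ⊆ I, ∀ A ∈ W, (A \ T).Nonempty → l ≤ score g r (A \ T) T := by
    intro T hT A hA _
    exact (hWl A hA).trans (mT_le_score hg hr0.le hT lp l A)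
  -- the path to the typical state
  set η : ℝ := eps * l / Lam with hηdef
  have hη0 : 0 < η := by positivity
  have hη1 : η ≤ 1 := by
    rw [hηdef, div_le_one hLam]
    exact hη
  have hsizeU : ∀ 𝒜' ⊆ 𝒜, (𝒜'.biUnion id).card ≤ Np := by
    intro 𝒜' h𝒜'
    have h1 : (𝒜'.biUnion id).card ≤ 𝒜'.card * n := by
      refine Finset.card_biUnion_le_card_mul _ _ _ (fun A hA => ?_)
      exact hWn A (h𝒜W (h𝒜' hA))
    have h2 : 𝒜'.card ≤ t0 := (Finset.card_le_card h𝒜').trans h𝒜c
    exact h1.trans ((Nat.mul_le_mul_right n h2).trans hsize)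
  have hsubI : ∀ 𝒜' ⊆ 𝒜, 𝒜'.biUnion id ⊆ I := by
    intro 𝒜' h𝒜' x hx
    obtain ⟨A, hA, hxA⟩ := Finset.mem_biUnion.mp hx
    exact hWI A (h𝒜W (h𝒜' hA)) hxA
  have hstep : ∀ 𝒜' ⊆ 𝒜, ∀ A ∈ 𝒜, (A \ 𝒜'.biUnion id).Nonempty →
      η ≤ ρ (𝒜'.biUnion id) (A \ 𝒜'.biUnion id) := by
    intro 𝒜' h𝒜' A hA hne
    set T := 𝒜'.biUnion id with hT
    have hTI : T ⊆ I := hsubI 𝒜' h𝒜'
    obtain ⟨_, hphi⟩ := hgood T hTI (hsizeU 𝒜' h𝒜')
    have hsc := hscore T hTI A (h𝒜W hA) hne
    simp only [hρdef, rhoK]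
    rw [max_eq_right hphi]
    have h1 : 0 ≤ (1 - eps) * hK g r lpp lp l T (A \ T) / max (vv g r lpp lp T) Vp := by
      have h2 : 0 < max (vv g r lpp lp T) Vp := lt_of_lt_of_le hVp (le_max_right _ _)
      exact div_nonneg (mul_nonneg heps1'.le (hK_nonneg hg hr0.le _ _ _ _ _)) h2.le
    have h3 : batchW g r T (A \ T) = score g r (A \ T) T := by
      unfold batchW
      rw [if_pos ⟨hne, Finset.sdiff_disjoint⟩]
    rw [h3]
    have h4 : η ≤ eps * score g r (A \ T) T / Lam := by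
      rw [hηdef]
      exact div_le_div_of_nonneg_right (mul_le_mul_of_nonneg_left hsc heps0.le) hLam.le
    linarith
  obtain ⟨t, ht, hw⟩ := path_lower hρ0 𝒜 hη0 hη1 hstep
  -- the typical states
  set Tt := J.powerset.filter (fun T => Ts ⊆ T) with hTtdef
  have hTsTt : Ts ∈ Tt := Finset.mem_filter.mpr ⟨Finset.mem_powerset.mpr hTsJ, Finset.Subset.refl _⟩
  have hclosed : ∀ T ∈ Tt, ∀ B ⊆ J \ T, T ∪ B ∈ Tt := by
    intro T hT B hB
    obtain ⟨h1, h2⟩ := Finset.mem_filter.mp hT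
    refine Finset.mem_filter.mpr ⟨Finset.mem_powerset.mpr (Finset.union_subset
      (Finset.mem_powerset.mp h1) (hB.trans Finset.sdiff_subset)), h2.trans Finset.subset_union_left⟩
  have hgain : ∀ T ∈ Tt, T.card ≤ Np → β ≤ ∑ B ∈ (J \ T).powerset, ρ T B := by
    intro T hT hTc
    obtain ⟨h1, h2⟩ := Finset.mem_filter.mp hT
    have hTJ : T ⊆ J := Finset.mem_powerset.mp h1
    have hTI : T ⊆ I := hTJ.trans hJI
    obtain ⟨hvT, hphi⟩ := hgood T hTI hTc
    refine gain_at hg hr0 hr1 hlp hlpp hVp hLam heps0 heps1 hβ2 hTI W hWI (hscore T hTI)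
      hvT hphi hτdef hv'pos.le ?_ ?_
    · intro C hCn hdis _
      by_contra hc
      push Not at hc
      have hCsub := hhit C hCn hc.le
      obtain ⟨z, hz⟩ := hCn
      exact Finset.disjoint_left.mp hdis hz (h2 (hCsub hz))
    · have h3 : (1 - eps) ^ 2 * ((1 - eps) * V) ≤ (1 - eps) ^ 2 * v' :=
        mul_le_mul_of_nonneg_left hv'low (by positivity)
      calc β * Vp ≤ (1 - eps) ^ 3 * V := hratio
        _ = (1 - eps) ^ 2 * ((1 - eps) * V) := by ring
        _ ≤ _ := h3
  -- amplification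
  have htk : t ≤ k := (ht.trans h𝒜c).trans ht0k
  have hamp := chainR_amplify hρ0 hρs Tt J hclosed (by linarith : (0 : ℝ) ≤ β) hgain t (k - t)
    (by
      rw [Nat.add_sub_cancel' htk]
      exact hk)
  rw [Nat.add_sub_cancel' htk] at hamp
  refine ⟨J, hJI, ?_, ?_⟩
  · intro x hx
    obtain ⟨A, hA, hxA⟩ := Finset.mem_biUnion.mp hx
    refine ⟨A, ?_, hxA, hWn A hA, ?_⟩
    · intro y hy
      exact Finset.mem_biUnion.mpr ⟨A, hA, hy⟩
    · have h1 := mT_le_score hg hr0.le (Finset.empty_subset I) lp l A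
      rw [Finset.sdiff_empty] at h1
      exact (hWl A hA).trans h1
  · have hTtsub : ∑ T ∈ Tt, chainR ρ k T ≤ ∑ T ∈ J.powerset, chainR ρ k T :=
      Finset.sum_le_sum_of_subset_of_nonneg (Finset.filter_subset _ _)
        (fun T _ _ => chainR_nonneg hρ0 k T)
    have hTsw : chainR ρ t Ts ≤ ∑ T ∈ Tt, chainR ρ t T :=
      Finset.single_le_sum (f := fun T => chainR ρ t T) (fun T _ => chainR_nonneg hρ0 t T) hTsTt
    have hβpow : β ^ (k - t0) ≤ β ^ (k - t) :=
      pow_le_pow_right₀ hβ1 (by omega)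
    have hηpow : η ^ t0 ≤ η ^ 𝒜.card :=
      pow_le_pow_of_le_one hη0.le hη1 h𝒜c
    have hβ0 : 0 ≤ β ^ (k - t) := by positivity
    calc η ^ t0 * β ^ (k - t0) ≤ η ^ 𝒜.card * β ^ (k - t) :=
          mul_le_mul hηpow hβpow (by positivity) (by positivity)
      _ ≤ chainR ρ t Ts * β ^ (k - t) := mul_le_mul_of_nonneg_right hw hβ0
      _ ≤ (∑ T ∈ Tt, chainR ρ t T) * β ^ (k - t) := mul_le_mul_of_nonneg_right hTsw hβ0
      _ = β ^ (k - t) * ∑ T ∈ Tt, chainR ρ t T := mul_comm _ _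
      _ ≤ _ := hamp
      _ ≤ _ := hTtsub

end Vale.Agent.Lib.P034W
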