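import Mathlib
import Vale.Agent.Lib.P034W.Target
import Vale.Agent.Lib.P034U.Crude

/-!
One level of the stationary induction: chain amplification, the self cover of the cores, rounding.
-/

namespace Vale.Agent.Lib.P034W
open Finset
open Vale.Agent.Lib.P034

variable {X : Type*} [Fintype X] [DecidableEq X]
variable {g : Finset X → ℝ} {r : ℝ}

/-- The statement at one level of the stationary induction. -/
def LevOK (g : Finset X → ℝ) (r bs κ θ : ℝ) (N : ℕ) (V c : ℝ) : Prop :=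
  ∃ C : Finset (Finset X), ∑ T ∈ C, r ^ T.card ≤ c ∧
    ∀ I, SeedFree g bs I → (∀ A ∈ C, ¬ A ⊆ I) → I.card ≤ N → vv g r κ θ I ≤ V

lemma seedSum_eq_score (hA : Finset X) : seedSum g (2 * r) hA = score g r hA ∅ := by
  unfold seedSum score
  refine Finset.sum_congr rfl (fun S _ => ?_)
  rw [Finset.empty_union]

/-- The passage from one level to the next. -/
theorem level_step (hg : ∀ S, 0 ≤ g S) {n : ℕ} (hs : ∀ S : Finset X, S.card ≠ n → g S = 0)
    (hr0 : 0 < r) (hr1 : r ≤ 1 / 8) {bs : ℝ} (hbs : 3 * r ≤ bs) (hΦ : phiA g bs ∅ ≤ 1)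
    {lpp lp l Vp V Lam eps β γ lam c c' e : ℝ} {Np N t0 k : ℕ}
    (hl : 0 < l) (hllp : l ≤ lp) (hlp : lp ≤ lpp) (hVp : 0 < Vp) (hV : 0 < V) (hLam : 0 < Lam)
    (heps0 : 0 < eps) (heps1 : eps < 1) (hβ1 : 1 ≤ β) (hβ2 : β ≤ 2)
    (hratio : β * Vp ≤ (1 - eps) ^ 3 * V) (hη : eps * l ≤ Lam)
    (hlight : ((N : ℝ) + 1) ^ n * l ≤ eps * V)
    (ht0 : 2 ^ (n + 1) * Lam ≤ eps ^ 2 * lpp * t0)
    (hsize : t0 * n ≤ Np) (hk : k * n ≤ Np) (ht0k : t0 ≤ k)
    (hγ : 0 < γ) (hγl : γ ≤ (1 - 2 * r) ^ n * l) (hlam : 0 ≤ lam)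
    (hM : 1 < (eps * l / Lam) ^ t0 * β ^ (k - t0))
    (hcost : lam + (2 ^ N / γ) ^ N *
      Real.exp (-(lam * ((eps * l / Lam) ^ t0 * β ^ (k - t0) - 1))) ≤ e)
    (hprev : LevOK g r bs lpp lp Np Vp c)
    (hphi : ∃ C : Finset (Finset X), ∑ T ∈ C, r ^ T.card ≤ c' ∧
      ∀ I, SeedFree g bs I → I.card ≤ Np → (∀ T ∈ C, ¬ T ⊆ I) → phiA g (3 * r) I ≤ Lam) :
    LevOK g r bs lp l N V (c + c' + e) := by
  classical
  obtain ⟨C1, hC1, hcov1⟩ := hprev
  obtain ⟨C2, hC2, hcov2⟩ := hphi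
  have hr2 : 2 * r ≤ 1 := by linarith
  set ρ := rhoK g r eps lpp lp l Vp Lam with hρdef
  have hρ0 : ∀ T B, 0 ≤ ρ T B := rhoK_nonneg hg hr0.le heps0.le heps1.le hVp hLam
  have hsub : ∀ T, ∑ B, r ^ (B \ T).card * ρ T B ≤ 1 :=
    rhoK_sub hg hr0.le heps0.le heps1.le hVp hLam hllp
  have htot := chainR_total hρ0 hr0.le hsub k
  set w := chainR ρ k with hw
  have hw0 : ∀ T, 0 ≤ w T := chainR_nonneg hρ0 k
  set M := (eps * l / Lam) ^ t0 * β ^ (k - t0) with hMdef
  set 𝓘 : Finset (Finset X) := univ.filter (fun J => J.Nonempty ∧ SeedFree g bs J ∧ J.card ≤ N ∧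
    (∀ x ∈ J, ∃ A ⊆ J, x ∈ A ∧ γ ≤ hW g (2 * r) A) ∧ M ≤ ∑ T ∈ J.powerset, w T) with h𝓘
  have ha1 : 2 * r ≤ 1 := hr2
  have hWb : ∑ J ∈ 𝓘, r ^ J.card ≤ (2 ^ N / γ) ^ N := by
    refine Vale.Agent.Lib.P034U.self_cover hg (a := 2 * r) (by positivity) ha1 hr0 ?_ hΦ N hγ 𝓘 ?_
    · nlinarith
    · intro J hJ
      obtain ⟨h1, h2, h3, h4, _⟩ := (Finset.mem_filter.mp hJ).2
      exact ⟨h1, h2, h3, h4⟩
  obtain ⟨C3, hC3, hcov3⟩ := rounding_cover w hw0 hr0 htot 𝓘 hWb hlam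
    (fun J hJ => (Finset.mem_filter.mp hJ).2.2.2.2.2)
  refine ⟨C1 ∪ C2 ∪ C3, ?_, ?_⟩
  · have hnn : ∀ T : Finset X, 0 ≤ r ^ T.card := fun T => pow_nonneg hr0.le _
    have h1 : ∑ T ∈ C1 ∪ C2, r ^ T.card ≤ ∑ T ∈ C1, r ^ T.card + ∑ T ∈ C2, r ^ T.card := by
      rw [← Finset.sum_union_inter]
      have := Finset.sum_nonneg (s := C1 ∩ C2) (fun T _ => hnn T)
      linarith
    have h2 : ∑ T ∈ C1 ∪ C2 ∪ C3, r ^ T.card ≤
        ∑ T ∈ C1 ∪ C2, r ^ T.card + ∑ T ∈ C3, r ^ T.card := by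
      rw [← Finset.sum_union_inter]
      have := Finset.sum_nonneg (s := (C1 ∪ C2) ∩ C3) (fun T _ => hnn T)
      linarith
    linarith
  · intro I hSF hunc hIc
    by_contra hvI
    push Not at hvI
    have hgood : ∀ T ⊆ I, T.card ≤ Np → vv g r lpp lp T ≤ Vp ∧ phiA g (3 * r) T ≤ Lam := by
      intro T hTI hTc
      constructor
      · exact hcov1 T (seedFree_anti hTI hSF)
          (fun A hA hAT => hunc A (Finset.mem_union_left _ (Finset.mem_union_left _ hA))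
            (hAT.trans hTI)) hTc
      · exact hcov2 T (seedFree_anti hTI hSF) hTc
          (fun A hA hAT => hunc A (Finset.mem_union_left _ (Finset.mem_union_right _ hA))
            (hAT.trans hTI))
    have hlight' : ((I.card : ℝ) + 1) ^ n * l ≤ eps * V := by
      refine le_trans (mul_le_mul_of_nonneg_right ?_ hl.le) hlight
      refine pow_le_pow_left₀ (by positivity) ?_ n
      have : (I.card : ℝ) ≤ N := by exact_mod_cast hIc
      linarith
    obtain ⟨J, hJI, hJheavy, hJmass⟩ := target_mass hg hs hr0 hr2 hl hllp hlp hVp hV hLam heps0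
      heps1 hβ1 hβ2 hratio hη hlight' hvI hgood ht0 hsize hk ht0k
    have hJne : J.Nonempty := by
      by_contra hne
      rw [Finset.not_nonempty_iff_eq_empty] at hne
      subst hne
      simp only [Finset.powerset_empty, Finset.sum_singleton] at hJmass
      have h2 : r ^ (∅ : Finset X).card * w ∅ ≤ ∑ T, r ^ T.card * w T :=
        Finset.single_le_sum (f := fun T => r ^ T.card * w T)
          (fun T _ => mul_nonneg (pow_nonneg hr0.le _) (hw0 T)) (Finset.mem_univ _)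
      simp only [Finset.card_empty, pow_zero, one_mul] at h2
      have h3 : M ≤ 1 := hJmass.trans (h2.trans htot)
      linarith
    have hJmem : J ∈ 𝓘 := by
      refine Finset.mem_filter.mpr ⟨Finset.mem_univ _, hJne, seedFree_anti hJI hSF,
        (Finset.card_le_card hJI).trans hIc, ?_, hJmass⟩
      intro x hx
      obtain ⟨A, hAJ, hxA, hAc, hAs⟩ := hJheavy x hx
      refine ⟨A, hAJ, hxA, ?_⟩
      unfold hW
      rw [seedSum_eq_score]
      have h1 : (1 - 2 * r) ^ n ≤ (1 - 2 * r) ^ A.card :=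
        pow_le_pow_of_le_one (by linarith) (by linarith) hAc
      have h2 : 0 ≤ (1 - 2 * r) ^ n := pow_nonneg (by linarith) _
      calc γ ≤ (1 - 2 * r) ^ n * l := hγl
        _ ≤ (1 - 2 * r) ^ A.card * score g r A ∅ :=
          mul_le_mul h1 hAs hl.le (pow_nonneg (by linarith) _)
    obtain ⟨T, hT, hTJ⟩ := hcov3 J hJmem
    exact hunc T (Finset.mem_union_right _ hT) (hTJ.trans hJI)

/-- The capped potential is at most the potential at `2 r`. -/
lemma vv_le_phi (hg : ∀ S, 0 ≤ g S) (hr0 : 0 ≤ r) (κ θ : ℝ) (T : Finset X) :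
    vv g r κ θ T ≤ phiA g (2 * r) T := by
  classical
  unfold vv phiA
  have hnn : ∀ S : Finset X, 0 ≤ g S * (2 * r) ^ (S \ T).card := fun S =>
    mul_nonneg (hg S) (pow_nonneg (by positivity) _)
  refine le_trans (Finset.sum_le_sum (fun S _ => ?_))
    (Finset.sum_le_sum_of_subset_of_nonneg (Finset.subset_univ _) (fun S _ _ => hnn S))
  have h1 : ((1 : ℝ) / 2) ^ (hiSet g r θ S T).card ≤ 1 := pow_le_one₀ (by norm_num) (by norm_num)
  calc g S * (1 / 2) ^ (hiSet g r θ S T).card * (2 * r) ^ (S \ T).card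
      = (1 / 2) ^ (hiSet g r θ S T).card * (g S * (2 * r) ^ (S \ T).card) := by ring
    _ ≤ 1 * (g S * (2 * r) ^ (S \ T).card) := mul_le_mul_of_nonneg_right h1 (hnn S)
    _ = _ := one_mul _

/-- The mass on the subsets of `D` is at most the capped potential at `D`. -/
lemma mass_le_vv (hg : ∀ S, 0 ≤ g S) (hr0 : 0 ≤ r) (κ θ : ℝ) (D : Finset X) :
    ∑ S ∈ D.powerset, g S ≤ vv g r κ θ D := by
  classical
  unfold vv
  have hnn : ∀ S : Finset X, 0 ≤ g S * (1 / 2) ^ (hiSet g r θ S D).card * (2 * r) ^ (S \ D).card :=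
    fun S => mul_nonneg (mul_nonneg (hg S) (by positivity)) (pow_nonneg (by positivity) _)
  have hsub : D.powerset ⊆ univ.filter (fun S => Unc g r κ S D) := by
    intro S hS
    have hSD : S ⊆ D := Finset.mem_powerset.mp hS
    refine Finset.mem_filter.mpr ⟨Finset.mem_univ _, ?_⟩
    unfold Unc
    rw [Finset.eq_empty_iff_forall_notMem]
    intro z hz
    have := hiSet_subset hz
    rw [Finset.sdiff_eq_empty_iff_subset.mpr hSD] at this
    simp at this
  refine le_trans (le_of_eq ?_) (Finset.sum_le_sum_of_subset_of_nonneg hsub (fun S _ _ => hnn S))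
  refine Finset.sum_congr rfl (fun S hS => ?_)
  have hSD : S ⊆ D := Finset.mem_powerset.mp hS
  have h1 : hiSet g r θ S D = ∅ := by
    rw [Finset.eq_empty_iff_forall_notMem]
    intro z hz
    have := hiSet_subset hz
    rw [Finset.sdiff_eq_empty_iff_subset.mpr hSD] at this
    simp at this
  rw [h1, Finset.sdiff_eq_empty_iff_subset.mpr hSD]
  simp

end Vale.Agent.Lib.P034W
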