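import Mathlib
import Vale.Agent.Lib.P034W.Step

/-!
The step of the stationary induction with the crude potential inserted, at noise `aI r 6`.
-/

namespace Vale.Agent.Lib.P034W
open Finset
open Vale.Agent.Lib.P034

variable {X : Type*} [Fintype X] [DecidableEq X]
variable {g : Finset X → ℝ} {r : ℝ}

/-- The step, with all the numerical facts as hypotheses. -/
theorem step_of_facts (hg : ∀ S, 0 ≤ g S) {n : ℕ} (hn : 0 < n)
    (hs : ∀ S : Finset X, S.card ≠ n → g S = 0)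
    (hr0 : 0 < r) (hr1 : r ≤ 1 / 8) (hΦ : phiA g (aI r 6) ∅ ≤ 1)
    {lpp lp l Vp V eps β c : ℝ} {Np N t0 t B : ℕ}
    (hl : 0 < l) (hllp : l ≤ lp) (hlp : lp ≤ lpp) (hVp : 0 < Vp) (hV : 0 < V)
    (heps0 : 0 < eps) (heps1 : eps < 1) (hβ1 : 1 ≤ β) (hβ2 : β ≤ 2)
    (hratio : β * Vp ≤ (1 - eps) ^ 3 * V) (hη : eps * l ≤ 2 * ((t : ℝ) + 1) ^ n + 1)
    (hlight : ((N : ℝ) + 1) ^ n * l ≤ eps * V)
    (ht0 : 2 ^ (n + 1) * (2 * ((t : ℝ) + 1) ^ n + 1) ≤ eps ^ 2 * lpp * t0)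
    (hsize : t0 * n ≤ Np) (ht0k : t0 ≤ Np / n)
    (hcrude : 2 ^ B * (2 * Np ^ 2 + B) + 1 ≤ 2 ^ (t / n + 1))
    (hM : 1 < (eps * l / (2 * ((t : ℝ) + 1) ^ n + 1)) ^ t0 * β ^ (Np / n - t0))
    (hcost : (2 ^ N / ((1 / 2) ^ n * l)) ^ N *
      Real.exp (-((1 / 2) ^ B * ((eps * l / (2 * ((t : ℝ) + 1) ^ n + 1)) ^ t0 *
        β ^ (Np / n - t0) - 1))) ≤ (1 / 2) ^ B)
    (hprev : LevOK g r (aI r 6) lpp lp Np Vp c) :
    LevOK g r (aI r 6) lp l N V (c + 2 * (1 / 2) ^ B + 2 * (1 / 2) ^ B) := by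
  have hr11 : r ≤ 1 := by linarith
  have h34 : 3 * r ≤ aI r 4 := Vale.Agent.Lib.P034U.three_mul_le_aI_four hr0.le hr1
  have h46 : aI r 4 ≤ aI r 6 := aI_mono hr0.le hr11 (by norm_num)
  have h56 : aI r 5 ≤ aI r 6 := aI_mono hr0.le hr11 (by norm_num)
  have h30 : (0 : ℝ) ≤ 3 * r := by positivity
  obtain ⟨C, hC, hcov⟩ := Vale.Agent.Lib.P034U.crude_potential hg hn hs hr0 hr11 h56 hΦ Np t B hcrude
  have hLam : (0 : ℝ) < 2 * ((t : ℝ) + 1) ^ n + 1 := by positivity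
  have hγ : 0 < ((1 : ℝ) / 2) ^ n * l := by positivity
  have hγl : ((1 : ℝ) / 2) ^ n * l ≤ (1 - 2 * r) ^ n * l := by
    refine mul_le_mul_of_nonneg_right ?_ hl.le
    exact pow_le_pow_left₀ (by norm_num) (by linarith) n
  refine level_step (lam := (1 / 2) ^ B) (γ := (1 / 2) ^ n * l) (k := Np / n) hg hs hr0 hr1 (h34.trans h46) hΦ hl hllp hlp hVp hV hLam heps0 heps1 hβ1 hβ2
    hratio hη hlight ht0 hsize (Nat.div_mul_le_self Np n) ht0k hγ hγl (by positivity) hM ?_ hprev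
    ⟨C, hC, fun I hSF hIc hno => (phiA_mono hg h30 h34 I).trans (hcov I hSF hIc hno)⟩
  have : ((1 : ℝ) / 2) ^ B + ((1 : ℝ) / 2) ^ B = 2 * (1 / 2) ^ B := by ring
  linarith

end Vale.Agent.Lib.P034W
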