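import Mathlib
import Vale.Agent.Lib.P034W.StepF
import Vale.Agent.Lib.P034U.Num

/-!
The step of the stationary induction with the concrete numbers.
-/

namespace Vale.Agent.Lib.P034W
open Finset
open Vale.Agent.Lib.P034
open Vale.Agent.Lib.P034U (xx ee lamU epsU betaU tK5 LamN t0 tauU etaU kU MU gammaU lamR K0)

variable {X : Type*} [Fintype X] [DecidableEq X]
variable {g : Finset X → ℝ} {r : ℝ}

/-- The step from the level `i + 1` to the level `i + 2`. -/
theorem level_succ (hg : ∀ S, 0 ≤ g S) {n : ℕ} (hn : 0 < n)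
    (hs : ∀ S : Finset X, S.card ≠ n → g S = 0)
    (hr0 : 0 < r) (hr1 : r ≤ 1 / 8) (hΦ : phiA g (aI r 6) ∅ ≤ 1) {i : ℕ} (hi : 1 ≤ i)
    (hprev : LevOK g r (aI r 6) (lamU n i) (lamU n (i + 1)) (Nn n (i + 1)) (vL n (i + 1))
      (cL n (i + 1))) :
    LevOK g r (aI r 6) (lamU n (i + 1)) (lamU n (i + 2)) (Nn n (i + 2)) (vL n (i + 2))
      (cL n (i + 2)) := by
  have hw := wn_pos hn
  have hLamCast : (LamN n i : ℝ) = 2 * ((tK5 n i : ℝ) + 1) ^ n + 1 := by
    unfold LamN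
    push_cast
    ring
  have hVpos : ∀ j, 0 < vL n j := by
    intro j
    unfold vL
    have h1 : ((1 : ℝ) / 2) ^ (j + 1) ≤ 1 / 2 := by
      rw [pow_succ]
      have : ((1 : ℝ) / 2) ^ j ≤ 1 := pow_le_one₀ (by norm_num) (by norm_num)
      linarith
    exact mul_pos hw (by linarith)
  have heps0 := Vale.Agent.Lib.P034U.epsU_pos (i + 2)
  have heps1 : epsU (i + 2) < 1 := lt_of_le_of_lt (Vale.Agent.Lib.P034U.epsU_le (i + 2)) (by norm_num)
  have hLampos : (0 : ℝ) < 2 * ((tK5 n i : ℝ) + 1) ^ n + 1 := by positivity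
  have hM0 := Vale.Agent.Lib.P034U.two_pow_K0_le_MU hn hi
  have hMeq : MU n i = (epsU (i + 2) * lamU n (i + 2) / (2 * ((tK5 n i : ℝ) + 1) ^ n + 1)) ^ t0 n i *
      betaU (i + 2) ^ (Nn n (i + 1) / n - t0 n i) := by
    unfold MU etaU kU
    rw [hLamCast]
  have hK0 : 1 < (2 : ℝ) ^ K0 n i := by
    apply one_lt_pow₀ (by norm_num)
    unfold K0
    omega
  have hstep := step_of_facts (t := tK5 n i) (t0 := t0 n i) (B := n + (i + 2) + 7)
    (lpp := lamU n i) (lp := lamU n (i + 1)) (l := lamU n (i + 2)) (Vp := vL n (i + 1))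
    (V := vL n (i + 2)) (eps := epsU (i + 2)) (β := betaU (i + 2)) (c := cL n (i + 1))
    (Np := Nn n (i + 1)) (N := Nn n (i + 2))
    hg hn hs hr0 hr1 hΦ (Vale.Agent.Lib.P034U.lamU_pos n (i + 2))
    (Vale.Agent.Lib.P034U.lamU_anti hn (by omega)) (Vale.Agent.Lib.P034U.lamU_anti hn (by omega))
    (hVpos _) (hVpos _) heps0 heps1 (Vale.Agent.Lib.P034U.one_le_betaU _)
    (Vale.Agent.Lib.P034U.betaU_le_two _)
    (Vale.Agent.Lib.P034U.num_ratio hn (i + 1))
    (by
      have h1 : lamU n (i + 2) ≤ 1 := by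
        unfold lamU
        exact pow_le_one₀ (by norm_num) (by norm_num)
      have h2 : (1 : ℝ) ≤ ((tK5 n i : ℝ) + 1) ^ n :=
        one_le_pow₀ (by
          have : (0 : ℝ) ≤ (tK5 n i : ℝ) := by positivity
          linarith)
      have h3 : epsU (i + 2) * lamU n (i + 2) ≤ 1 := by
        have h4 := Vale.Agent.Lib.P034U.lamU_pos n (i + 2)
        nlinarith
      linarith)
    (Vale.Agent.Lib.P034U.num_eps hn (i + 2))
    (by
      have h1 := Vale.Agent.Lib.P034U.two_pow_div_tauU n i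
      have h2 : (0 : ℝ) < (LamN n i : ℝ) := by rw [hLamCast]; exact hLampos
      have h3 := Vale.Agent.Lib.P034U.lamU_pos n i
      have h4 : tauU n i = epsU (i + 2) ^ 2 * lamU n i / (2 * (LamN n i : ℝ)) := rfl
      rw [h4] at h1
      have h5 : (0 : ℝ) < epsU (i + 2) ^ 2 * lamU n i := by positivity
      rw [div_div_eq_mul_div, div_eq_iff h5.ne'] at h1
      rw [← hLamCast]
      have e : (2 : ℝ) ^ (n + 1) = 2 ^ n * 2 := by ring
      rw [e]
      apply le_of_eq
      linarith)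
    (by
      rw [mul_comm]
      exact Vale.Agent.Lib.P034U.n_mul_t0_le hn hi)
    (by
      rw [Nat.le_div_iff_mul_le hn, mul_comm]
      exact Vale.Agent.Lib.P034U.n_mul_t0_le hn hi)
    (by
      have := Vale.Agent.Lib.P034U.num_k5 hn i
      rw [pow_two]
      exact this)
    (by
      rw [← hMeq]
      exact lt_of_lt_of_le hK0 hM0)
    (by
      rw [← hMeq]
      exact Vale.Agent.Lib.P034U.num_cost hn hi hM0)
    hprev
  have hcL : cL n (i + 1) + 2 * (1 / 2) ^ (n + (i + 2) + 7) + 2 * (1 / 2) ^ (n + (i + 2) + 7) =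
      cL n (i + 2) := by
    unfold cL
    have e1 : ((1 : ℝ) / 2) ^ (n + (i + 2) + 7) = (1 / 2) ^ (n + 4) * (1 / 2) ^ (i + 3) * (1 / 4) := by
      rw [show n + (i + 2) + 7 = (n + 4) + (i + 3) + 2 by ring, pow_add, pow_add]
      norm_num
    have e2 : ((1 : ℝ) / 2) ^ (i + 1 + 1) = (1 / 2) ^ (i + 3) * 2 := by
      rw [show i + 3 = (i + 1 + 1) + 1 by ring, pow_succ]
      ring
    have e3 : i + 2 + 1 = i + 3 := by ring
    rw [e1, e2, e3]
    ring
  rwa [hcL] at hstep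

end Vale.Agent.Lib.P034W
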