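import Mathlib
import Vale.Agent.Lib.P034W.Levels
import Vale.Agent.Lib.P034.Chain7

/-!
The base of the stationary induction, the cover for one class and the main theorem.
-/

namespace Vale.Agent.Lib.P034W
open Finset
open Vale.Agent.Lib.P034
open Vale.Agent.Lib.P034U (lamU)

variable {X : Type*} [Fintype X] [DecidableEq X] {g : Finset X → ℝ}

lemma two_mul_le_aI_three {r : ℝ} (hr0 : 0 ≤ r) (hr1 : r ≤ 1 / 8) : 2 * r ≤ aI r 3 := by
  unfold aI
  have h1 : r ^ 2 ≤ r * (1 / 8) := by nlinarith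
  have h2 : 0 ≤ r ^ 3 := pow_nonneg hr0 3
  have e : (1 - r) ^ 3 = 1 - 3 * r + 3 * r ^ 2 - r ^ 3 := by ring
  rw [e]
  linarith

/-- The base of the stationary level induction, from the noise decreasing chain. -/
theorem level_base {n : ℕ} (hg : ∀ S, 0 ≤ g S) (hn : 0 < n)
    (hs : ∀ S : Finset X, S.card ≠ n → g S = 0) {r : ℝ} (hr0 : 0 < r) (hr1 : r ≤ 1 / 8)
    (hΦ : phiA g (aI r 6) ∅ ≤ (1 / 2) ^ (60 * n + 1)) (k th : ℝ) :
    LevOK g r (aI r 6) k th (Nn n 2) (vL n 2) (cL n 2) := by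
  have h := class_levels hg hn hs hr0 (by linarith) 5 hΦ 2 (by norm_num)
  obtain ⟨C, hC, hcov⟩ := h
  refine ⟨C, hC, fun I hSF hno hc => ?_⟩
  have h1 := hcov I hSF hno I (Finset.Subset.refl _) hc
  have h2 : (5 : ℕ) - 2 = 3 := rfl
  rw [h2] at h1
  have h3 : 2 * r ≤ aI r 3 := two_mul_le_aI_three hr0.le hr1
  have h20 : 0 ≤ 2 * r := by positivity
  exact (vv_le_phi hg hr0.le _ _ I).trans ((phiA_mono hg h20 h3 I).trans h1)

/-- All levels. -/
theorem level_all {n : ℕ} (hg : ∀ S, 0 ≤ g S) (hn : 0 < n)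
    (hs : ∀ S : Finset X, S.card ≠ n → g S = 0) {r : ℝ} (hr0 : 0 < r) (hr1 : r ≤ 1 / 8)
    (hΦ : phiA g (aI r 6) ∅ ≤ (1 / 2) ^ (60 * n + 1)) (i : ℕ) :
    LevOK g r (aI r 6) (lamU n (i + 1)) (lamU n (i + 2)) (Nn n (i + 2)) (vL n (i + 2))
      (cL n (i + 2)) := by
  have hΦ1 : phiA g (aI r 6) ∅ ≤ 1 := hΦ.trans (pow_le_one₀ (by norm_num) (by norm_num))
  induction i with
  | zero => exact level_base hg hn hs hr0 hr1 hΦ _ _
  | succ i ih => exact level_succ hg hn hs hr0 hr1 hΦ1 (by omega) ih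

lemma le_Nn {n : ℕ} (hn : 0 < n) (j : ℕ) : j ≤ Nn n j := by
  have h : ∀ j, n * 2 ^ (j + 6) ≤ Nat.sqrt (Nn n j) := Nn_sqrt_ge hn
  have h1 : j < 2 ^ (j + 6) := lt_of_lt_of_le Nat.lt_two_pow_self
    (Nat.pow_le_pow_right (by norm_num) (by omega))
  have h2 : 2 ^ (j + 6) ≤ n * 2 ^ (j + 6) := Nat.le_mul_of_pos_left _ hn
  exact (h1.le.trans h2).trans ((h j).trans (Nat.sqrt_le_self _))

/-- The cover for one class. -/
theorem class_cover_universal (hg : ∀ S, 0 ≤ g S) {n : ℕ} (hn : 0 < n) {p r : ℝ} (hp0 : 0 < p)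
    (hr0 : 0 < r) (hr1 : r ≤ 1 / 8) (hcost : ∑ S, g S * p ^ S.card ≤ 1 / 2)
    (hr : 7 * r = p / 2 ^ 60) :
    ∃ C : Finset (Finset X), ∑ T ∈ C, r ^ T.card ≤ (1 / 2) ^ (n + 3) ∧
      ∀ D : Finset X, (∀ A ∈ C, ¬ A ⊆ D) → ∑ S ∈ D.powerset, levelPart g n S < wn n := by
  set g' : Finset X → ℝ := levelPart g n with hg'
  have hg'0 : ∀ S, 0 ≤ g' S := levelPart_nonneg hg n
  have hs : ∀ S : Finset X, S.card ≠ n → g' S = 0 := levelPart_support n
  have hr1' : r ≤ 1 := by linarith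
  set bs := aI r 6 with hbs
  have hbs0 : 0 ≤ bs := aI_nonneg hr0.le hr1' _
  have hbs1 : bs ≤ 6 * r := by
    have := aI_le_mul (r := r) hr1' 6
    push_cast at this
    exact this
  have hsum : r + bs ≤ p / 2 ^ 60 := by
    rw [← hr]
    linarith
  have hbsle : bs ≤ p / 2 ^ 60 := by linarith
  have hΦ : phiA g' bs ∅ ≤ (1 / 2) ^ (60 * n + 1) := by
    have := class_val hg n hp0 hcost hbs0 hbsle
    unfold phiA
    simpa using this
  have hseed : ∑ A ∈ seedSets g' bs, r ^ A.card ≤ (1 / 2) ^ (60 * n + 1) :=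
    (seedSets_cost hg'0 hbs0 hr0.le).trans
      (class_val hg n hp0 hcost (add_nonneg hr0.le hbs0) hsum)
  obtain ⟨C, hC, hcov⟩ := level_all hg'0 hn hs hr0 hr1 hΦ (Fintype.card X)
  have hwn := wn_pos hn
  refine ⟨C ∪ seedSets g' bs, ?_, ?_⟩
  · have h0 : 0 ≤ ∑ T ∈ C ∩ seedSets g' bs, r ^ T.card :=
      Finset.sum_nonneg (fun T _ => pow_nonneg hr0.le _)
    have h1 := Finset.sum_union_inter (s₁ := C) (s₂ := seedSets g' bs)
      (f := fun T => r ^ T.card)
    have h2 : cL n (Fintype.card X + 2) ≤ (1 / 2) ^ (n + 4) := by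
      unfold cL
      have : (0 : ℝ) < (1 / 2) ^ (Fintype.card X + 2 + 1) := by positivity
      have h3 : (0 : ℝ) < (1 / 2) ^ (n + 4) := by positivity
      nlinarith
    have h3 : ((1 : ℝ) / 2) ^ (60 * n + 1) ≤ (1 / 2) ^ (n + 4) :=
      pow_le_pow_of_le_one (by norm_num) (by norm_num) (by omega)
    have h4 : ((1 : ℝ) / 2) ^ (n + 3) = (1 / 2) ^ (n + 4) + (1 / 2) ^ (n + 4) := by
      rw [pow_succ _ (n + 3)]
      ring
    rw [h4]
    linarith
  · intro D hno
    have hSF : SeedFree g' bs D := seedFree_of_no_seed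
      (fun A hA => hno A (Finset.mem_union_right _ hA))
    have hD : D.card ≤ Nn n (Fintype.card X + 2) :=
      (Finset.card_le_univ D).trans ((by omega : Fintype.card X ≤ Fintype.card X + 2).trans
        (le_Nn hn _))
    have h1 := hcov D hSF (fun A hA => hno A (Finset.mem_union_left _ hA)) hD
    have h2 := mass_le_vv (g := g') (r := r) hg'0 hr0.le (lamU n (Fintype.card X + 1))
      (lamU n (Fintype.card X + 2)) D
    refine lt_of_le_of_lt (h2.trans h1) ?_
    unfold vL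
    have : (0 : ℝ) < (1 / 2) ^ (Fintype.card X + 2 + 1) := by positivity
    nlinarith

/-- Talagrand's conjecture on fractional covers, with the constant `2 ^ 60 * 7`. -/
theorem universal_small (F : Finset (Finset X)) (g : Finset X → ℝ) (p : ℝ)
    (hg : ∀ S, 0 ≤ g S) (hp0 : 0 < p) (hp1 : p ≤ 1) (hcost : ∑ S, g S * p ^ S.card ≤ 1 / 2)
    (hcov : ∀ H ∈ F, 1 ≤ ∑ S ∈ H.powerset, g S) :
    IsSmall F (p / (2 ^ 60 * 7)) := by
  set r : ℝ := p / (2 ^ 60 * 7) with hrdef
  have hr0 : 0 < r := by positivity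
  have hr1 : r ≤ 1 / 8 := by
    rw [hrdef, div_le_iff₀ (by norm_num)]
    norm_num
    linarith
  have hr : 7 * r = p / 2 ^ 60 := by
    rw [hrdef]
    field_simp
  have hcl := fun k : ℕ => class_cover_universal hg (Nat.succ_pos k) hp0 hr0 hr1 hcost hr
  choose C hC hCcov using hcl
  set m := Fintype.card X with hm
  refine ⟨(Finset.range m).biUnion C, ?_, ?_⟩
  · intro H hH
    have hD1 := hcov H hH
    by_contra hno
    push Not at hno
    have hlt : ∀ k ∈ Finset.range H.card,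
        ∑ S ∈ H.powerset, levelPart g (k + 1) S ≤ wn (k + 1) := by
      intro k hk
      have hkm : k < m := lt_of_lt_of_le (Finset.mem_range.mp hk) (Finset.card_le_univ H)
      refine (hCcov k H ?_).le
      intro A hA hAD
      exact hno A (Finset.mem_biUnion.mpr ⟨k, Finset.mem_range.mpr hkm, hA⟩) hAD
    have h0 : ∑ S ∈ H.powerset, levelPart g 0 S ≤ 1 / 2 := by
      have hS : ∑ S ∈ H.powerset, levelPart g 0 S = g ∅ := by
        rw [Finset.sum_eq_single (∅ : Finset X)]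
        · simp [levelPart]
        · intro S _ hS
          exact levelPart_support 0 S (fun h => hS (Finset.card_eq_zero.mp h))
        · intro h
          exact absurd (Finset.empty_mem_powerset H) h
      rw [hS]
      have := Finset.single_le_sum (f := fun S => g S * p ^ S.card)
        (fun S _ => mul_nonneg (hg S) (pow_nonneg hp0.le _)) (Finset.mem_univ (∅ : Finset X))
      simp only [Finset.card_empty, pow_zero, mul_one] at this
      linarith
    have h1 := sum_powerset_split (g := g) H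
    have h2 := Finset.sum_le_sum hlt
    have h3 := sum_wn_lt H.card
    linarith
  · unfold coverCost
    calc ∑ S ∈ (Finset.range m).biUnion C, r ^ S.card
        ≤ ∑ k ∈ Finset.range m, ∑ S ∈ C k, r ^ S.card :=
          sum_biUnion_le_sum _ _ _ (fun S => pow_nonneg hr0.le _)
      _ ≤ ∑ k ∈ Finset.range m, ((1 : ℝ) / 2) ^ (k + 1 + 3) :=
          Finset.sum_le_sum (fun k _ => hC k)
      _ ≤ 1 / 8 := sum_geom_le m
      _ ≤ 1 / 2 := by norm_num

end Vale.Agent.Lib.P034W
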