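import Mathlib
import Vale.Agent.Lib.P034.Defs

/-!
The integral and fractional expectation thresholds of a family, as suprema, and the passage from a
statement about one parameter to the comparison of the thresholds.
-/

namespace Vale.Agent.Lib.P034W
open Finset
open Vale.Agent.Lib.P034

variable {X : Type*} [Fintype X] [DecidableEq X]

/-- The parameters `p` in `[0, 1]` at which `F` is `p`-small. -/
def intSet (F : Finset (Finset X)) : Set ℝ :=
  {p | 0 ≤ p ∧ p ≤ 1 ∧ ∃ G : Finset (Finset X), (∀ H ∈ F, ∃ S ∈ G, S ⊆ H) ∧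
    ∑ S ∈ G, p ^ S.card ≤ 1 / 2}

/-- The parameters `p` in `[0, 1]` at which `F` has a fractional cover with values in `[0, 1]` and
of cost at most one half. -/
def fracSet (F : Finset (Finset X)) : Set ℝ :=
  {p | 0 ≤ p ∧ p ≤ 1 ∧ ∃ g : Finset X → ℝ, (∀ S, 0 ≤ g S ∧ g S ≤ 1) ∧
    (∀ H ∈ F, 1 ≤ ∑ S ∈ H.powerset, g S) ∧ ∑ S, g S * p ^ S.card ≤ 1 / 2}

/-- The integral expectation threshold `q (F)`. -/
noncomputable def qInt (F : Finset (Finset X)) : ℝ := sSup (intSet F)

/-- The fractional expectation threshold `q_f (F)`. -/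
noncomputable def qFrac (F : Finset (Finset X)) : ℝ := sSup (fracSet F)

omit [Fintype X] [DecidableEq X] in
lemma intSet_bdd (F : Finset (Finset X)) : BddAbove (intSet F) :=
  ⟨1, fun _ hp => hp.2.1⟩

omit [DecidableEq X] in
lemma fracSet_bdd (F : Finset (Finset X)) : BddAbove (fracSet F) :=
  ⟨1, fun _ hp => hp.2.1⟩

omit [Fintype X] [DecidableEq X] in
lemma qInt_nonneg (F : Finset (Finset X)) : 0 ≤ qInt F :=
  Real.sSup_nonneg (fun _ hp => hp.1)

/-- The comparison of the thresholds from the statement at one parameter. -/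
theorem qFrac_le_of_small {K : ℝ} (hK : 1 ≤ K) (F : Finset (Finset X))
    (h : ∀ (g : Finset X → ℝ) (p : ℝ), (∀ S, 0 ≤ g S) → 0 < p → p ≤ 1 →
      ∑ S, g S * p ^ S.card ≤ 1 / 2 → (∀ H ∈ F, ∃ D, D ⊆ H ∧ 1 ≤ ∑ S ∈ D.powerset, g S) →
      IsSmall F (p / K)) :
    qFrac F ≤ K * qInt F := by
  have hK0 : 0 < K := by linarith
  have hq := qInt_nonneg F
  unfold qFrac
  rcases (fracSet F).eq_empty_or_nonempty with he | hne
  · rw [he, Real.sSup_empty]
    positivity
  refine csSup_le hne (fun p hp => ?_)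
  obtain ⟨hp0, hp1, g, hg, hcov, hcost⟩ := hp
  rcases hp0.eq_or_lt with h0 | h0
  · rw [← h0]
    positivity
  obtain ⟨G, hG, hGc⟩ := h g p (fun S => (hg S).1) h0 hp1 hcost
    (fun H hH => ⟨H, Finset.Subset.refl _, hcov H hH⟩)
  have hmem : p / K ∈ intSet F := by
    refine ⟨by positivity, ?_, G, hG, hGc⟩
    rw [div_le_one hK0]
    linarith
  have hle : p / K ≤ qInt F := le_csSup (intSet_bdd F) hmem
  rw [div_le_iff₀ hK0] at hle
  linarith

end Vale.Agent.Lib.P034W
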